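import Vale.Agent.P265.Geo

/-! Existence of Morse functions (height functions), so that the stable Morse number is finite. -/

namespace Vale.Agent.P265

open Set Topology

/-- If `u` is a critical point of the height function `ℓ` in the patch, it is nondegenerate. -/
def GoodL {V D : Type} [NormedAddCommGroup V] [NormedSpace ℝ V] [NormedAddCommGroup D]
    [NormedSpace ℝ D] {S : Set V} (p : Patch D S) (ℓ : V →L[ℝ] ℝ) (u : D) : Prop :=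
  fderiv ℝ (ℓ ∘ p.P) u = 0 → ∀ v, fderiv ℝ (fderiv ℝ (ℓ ∘ p.P)) u v = 0 → v = 0

def StmtME0 : Prop := ∀ (n : ℕ) (V : Type) [NormedAddCommGroup V] [NormedSpace ℝ V] (S : Set V)
  (p : Patch (Eu n) S) (K : Set (Eu n)), IsCompact K → K ⊆ p.U →
  IsOpen {ℓ : V →L[ℝ] ℝ | ∀ u ∈ K, GoodL p ℓ u}

def StmtME1 : Prop := ∀ (n : ℕ) (V : Type) [NormedAddCommGroup V] [NormedSpace ℝ V] (S : Set V)
  (p : Patch (Eu n) S), ∀ x ∈ S ∩ p.O, ∃ K ∈ 𝓝 (p.L x), K ⊆ p.U ∧ IsCompact K ∧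
  Dense {ℓ : V →L[ℝ] ℝ | ∀ u ∈ K, GoodL p ℓ u}

def StmtME2 : Prop := ∀ (n : ℕ) (V : Type) [NormedAddCommGroup V] [NormedSpace ℝ V] (S : Set V)
  (p : Patch (Eu n) S) (ℓ : V →L[ℝ] ℝ), ∀ x ∈ S ∩ p.O,
  (fderiv ℝ (ℓ ∘ p.P) (p.L x) = 0 ↔ ∀ v ∈ Tan S x, ℓ v = 0) ∧
  ∀ p' : Patch (Eu n) S, x ∈ p'.O → GoodL p ℓ (p.L x) → GoodL p' ℓ (p'.L x)

def StmtME3 : Prop := ∀ (n : ℕ) (V : Type) [NormedAddCommGroup V] [NormedSpace ℝ V] (S : Set V),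
  IsCompact S → Atl (Eu n) S → ∃ ℓ : V →L[ℝ] ℝ,
  (∀ p : Patch (Eu n) S, ∀ x ∈ S ∩ p.O, GoodL p ℓ (p.L x)) ∧
  {x | x ∈ S ∧ ∀ v ∈ Tan S x, ℓ v = 0}.Finite

def StmtME4 : Prop := ∀ (n : ℕ) (V : Type) [NormedAddCommGroup V] [NormedSpace ℝ V] (S : Set V)
  (h : Atl (Eu n) S), IsCompact S → letI := h.cs
  stableMorse n S < ⊤

end Vale.Agent.P265
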