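import Vale.Agent.P265.M.Arith
import Vale.Agent.P265.M.Avg
import Vale.Agent.P265.M.Ball
import Vale.Agent.P265.M.Band
import Vale.Agent.P265.M.Bas
import Vale.Agent.P265.M.Br1
import Vale.Agent.P265.M.Br2
import Vale.Agent.P265.M.Br3
import Vale.Agent.P265.M.Cap
import Vale.Agent.P265.M.Circ
import Vale.Agent.P265.M.CovE
import Vale.Agent.P265.M.Cube
import Vale.Agent.P265.M.Diag
import Vale.Agent.P265.M.Eqv
import Vale.Agent.P265.M.Exc
import Vale.Agent.P265.M.F0
import Vale.Agent.P265.M.F1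
import Vale.Agent.P265.M.F2
import Vale.Agent.P265.M.F3
import Vale.Agent.P265.M.F4
import Vale.Agent.P265.M.Face
import Vale.Agent.P265.M.Fin
import Vale.Agent.P265.M.Flow
import Vale.Agent.P265.M.FlowA
import Vale.Agent.P265.M.G1
import Vale.Agent.P265.M.G2
import Vale.Agent.P265.M.Ham
import Vale.Agent.P265.M.HamA
import Vale.Agent.P265.M.HamB
import Vale.Agent.P265.M.Htp
import Vale.Agent.P265.M.Lev
import Vale.Agent.P265.M.Level
import Vale.Agent.P265.M.Lin
import Vale.Agent.P265.M.Lower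
import Vale.Agent.P265.M.ME0
import Vale.Agent.P265.M.ME1
import Vale.Agent.P265.M.ME2
import Vale.Agent.P265.M.ME3
import Vale.Agent.P265.M.ME4
import Vale.Agent.P265.M.Morse
import Vale.Agent.P265.M.Phi
import Vale.Agent.P265.M.Prod
import Vale.Agent.P265.M.PushC
import Vale.Agent.P265.M.Quad
import Vale.Agent.P265.M.RC
import Vale.Agent.P265.M.SG
import Vale.Agent.P265.M.Sheet
import Vale.Agent.P265.M.Sig
import Vale.Agent.P265.M.StabA
import Vale.Agent.P265.M.Step1
import Vale.Agent.P265.M.Step2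
import Vale.Agent.P265.M.Step3
import Vale.Agent.P265.M.Sub
import Vale.Agent.P265.M.Sum
import Vale.Agent.P265.M.Susp
import Vale.Agent.P265.M.Tan
import Vale.Agent.P265.M.Tot
import Vale.Agent.P265.M.Tri
import Vale.Agent.P265.M.Tri2
import Vale.Agent.P265.M.U2
import Vale.Agent.P265.M.U23
import Vale.Agent.P265.M.U3
import Vale.Agent.P265.M.V
import Vale.Agent.P265.M.V0
import Vale.Agent.P265.M.V1
import Vale.Agent.P265.M.V3
import Vale.Agent.P265.M.VF
import Vale.Agent.P265.M.W0
import Vale.Agent.P265.M.XAtl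
import Vale.Agent.P265.M.XC
import Vale.Agent.P265.M.XD
import Vale.Agent.P265.M.XN
import Vale.Agent.P265.M.YA
import Vale.Agent.P265.M.YB
import Vale.Agent.P265.M.YC
import Vale.Agent.P265.M.YCoh
import Vale.Agent.P265.M.YFix
import Vale.Agent.P265.M.YMor
import Vale.Agent.P265.M.YN
import Vale.Agent.P265.M.YRot
import Vale.Agent.P265.M.Zero

namespace Vale.Agent.P265

open scoped Manifold ContDiff

theorem tri2T : StmtTri2 := tri2S basS (triS basS (avgS basS))
theorem htpT : StmtHtp := htpS basS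
theorem eqvT : StmtEqv := eqvS basS htpT
theorem zeroT : StmtZero := zeroS basS htpT
theorem excT : StmtExc := excS basS
theorem sumT : StmtSum := sumS basS
theorem sheetT : StmtSheet := sheetS basS (avgS basS)
theorem suspT : StmtSusp := suspS tri2T eqvT zeroT excT
theorem ballT : StmtBall := ballS eqvT (cubeS eqvT suspT basS)
theorem circT : StmtCirc := circS tri2T eqvT zeroT excT suspT
theorem morseT : StmtMorse :=
  morseS (levelS tri2T zeroT) (step1S quadS pushCS) (step2S pushCS)
    (step3S excT sheetT eqvT ballT zeroT) tri2T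
theorem lowerT : StmtLower :=
  lowerS (stabAS diagS pushCS faceS) (stabBS eqvT ballT) morseT arithS
theorem br1T : StmtBr1 := br1S tanS
theorem hamT : StmtHam :=
  hamS tanS (vfS tanS) (flowS tanS flowAS) (hamAS tanS) (hamBS tanS flowAS linS)
theorem xAtlT : StmtXAtl := xAtlS levS
theorem f0T : StmtF0 := f0S xAtlT
theorem f1T : StmtF1 := f1S f0T
theorem w0T : StmtW0 := w0S f0T f1T
theorem rcT : StmtRC := rcS tanS xAtlT f0T f1T
theorem phiT : StmtPhi :=
  phiS xAtlT f0T f1T (f2S tanS xAtlT f0T f1T rcT) (f3S f0T f1T w0T)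
    (f4S tanS xAtlT f0T f1T w0T rcT)
theorem vT : StmtV := vS xAtlT f0T (v0S f0T) (v1S f0T (v0S f0T)) (v3S f0T f1T)
theorem yBT : StmtYB := yBS yAS
theorem g1T : StmtG1 := g1S tanS yFixS
theorem bandT : StmtBand := bandS eqvT zeroT circT sgS parS
theorem capT : StmtCap :=
  capS tri2T eqvT zeroT excT sgS (u2S eqvT zeroT sheetT sgS) (u3S eqvT zeroT sheetT sgS)
    (u23S eqvT zeroT sheetT sgS)
theorem totT : StmtTot :=
  totS eqvT circT sgS yAS (yCohS morseT pushCS (subS eqvT) yAS yBT yMorS t4S)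
    (sig1S tri2T zeroT excT sgS bandT capT) (sig3S tri2T excT sumT sgS bandT capT)
theorem me4T : StmtME4 :=
  me4S br1T (me2S tanS) (me3S me0S (me1S tanS) (me2S tanS))

theorem mainT : Main :=
  finS tanS xAtlT xCS xNS yAS yBT yCS (yNS tanS yBT yCS) (yRotS yCS) (prodS tanS) hamT phiT vT
    g1T (g2S tanS yFixS g1T) br1T (br3S br1T (br2S tanS br1T)) lowerT (subS eqvT)
    (connS basS sumT) totT (covES sgS) me4T

end Vale.Agent.P265
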