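import Vale.Agent.P265.Defs

/-! Alexander-Spanier cohomology of compact pairs, on lists, with an eigenvalue of a self-map. -/

namespace Vale.Agent.P265

open Set

abbrev K7 := ZMod 7

instance fact7 : Fact (Nat.Prime 7) := ⟨by norm_num⟩

/-- Cochains: functions on lists of points (all lengths at once). -/
abbrev Co (E : Type) := List E → K7

def dd {E : Type} : Co E → List E → K7
  | _, [] => 0
  | φ, x :: l => φ l - dd (fun m => φ (x :: m)) l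

theorem dd_add {E : Type} (l : List E) : ∀ φ ψ : Co E, dd (φ + ψ) l = dd φ l + dd ψ l := by
  induction l with
  | nil => intro φ ψ; simp [dd]
  | cons x l ih =>
    intro φ ψ
    have := ih (fun m => φ (x :: m)) (fun m => ψ (x :: m))
    simp only [dd, Pi.add_apply]
    have h2 : (fun m => φ (x :: m) + ψ (x :: m)) =
        (fun m => φ (x :: m)) + (fun m => ψ (x :: m)) := rfl
    rw [h2, this]; ring

theorem dd_smul {E : Type} (c : K7) (l : List E) : ∀ φ : Co E, dd (c • φ) l = c * dd φ l := by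
  induction l with
  | nil => intro φ; simp [dd]
  | cons x l ih =>
    intro φ
    have := ih (fun m => φ (x :: m))
    simp only [dd, Pi.smul_apply, smul_eq_mul]
    have h2 : (fun m => c * φ (x :: m)) = c • (fun m => φ (x :: m)) := rfl
    rw [h2, this]; ring

/-- The coboundary. -/
def dL (E : Type) : Co E →ₗ[K7] Co E where
  toFun φ := dd φ
  map_add' φ ψ := funext fun l => dd_add l φ ψ
  map_smul' c φ := funext fun l => dd_smul c l φ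

/-- Pull-back of cochains. -/
def pb {E E' : Type} (f : E → E') : Co E' →ₗ[K7] Co E := LinearMap.funLeft K7 K7 (List.map f)

section
variable {E : Type} [MetricSpace E]

/-- A list of points of `A` of diameter `< δ`. -/
def Sm (δ : ℝ) (A : Set E) (l : List E) : Prop :=
  (∀ x ∈ l, x ∈ A) ∧ ∀ x ∈ l, ∀ y ∈ l, dist x y < δ

/-- Cochains vanishing on small lists of length `n` in `A`. -/
def Nul (A : Set E) (n : ℕ) : Submodule K7 (Co E) where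
  carrier := {φ | ∃ δ > 0, ∀ l : List E, l.length = n → Sm δ A l → φ l = 0}
  zero_mem' := ⟨1, one_pos, fun _ _ _ => rfl⟩
  add_mem' := by
    rintro φ ψ ⟨δ, hδ, h⟩ ⟨δ', hδ', h'⟩
    refine ⟨min δ δ', lt_min hδ hδ', fun l hl hs => ?_⟩
    rw [Pi.add_apply, h l hl ⟨hs.1, fun x hx y hy => (hs.2 x hx y hy).trans_le (min_le_left _ _)⟩,
      h' l hl ⟨hs.1, fun x hx y hy => (hs.2 x hx y hy).trans_le (min_le_right _ _)⟩, add_zero]
  smul_mem' := by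
    rintro c φ ⟨δ, hδ, h⟩
    exact ⟨δ, hδ, fun l hl hs => by rw [Pi.smul_apply, h l hl hs, smul_zero]⟩

/-- Relative cocycles of the pair `(A, B)` on lists of length `n` (degree `n - 1`). -/
def Zc (A B : Set E) (n : ℕ) : Submodule K7 (Co E) := Nul B n ⊓ (Nul A (n + 1)).comap (dL E)

/-- Relative coboundaries. -/
def Bd (A B : Set E) (n : ℕ) : Submodule K7 (Co E) := (Nul B (n - 1)).map (dL E) ⊔ Nul A n

/-- Cocycles whose class is an `ε`-eigenvector of the pull-back by `ι`. -/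
def Ze (ι : E → E) (ε : K7) (A B : Set E) (n : ℕ) : Submodule K7 (Co E) :=
  Zc A B n ⊓ (Bd A B n).comap (pb ι - ε • LinearMap.id)

/-- Dimension of the `ε`-eigenspace of `ι` on `H^{n-1}(A, B)`. -/
noncomputable def hd (ι : E → E) (ε : K7) (A B : Set E) (n : ℕ) : Cardinal :=
  Module.rank K7 ((Ze ι ε A B n).map (Bd A B n).mkQ)

/-- Rank of the restriction `H(A, C) → H(B, C)` on eigenspaces. -/
noncomputable def rk (ι : E → E) (ε : K7) (A B C : Set E) (n : ℕ) : Cardinal :=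
  Module.rank K7 ((Ze ι ε A C n).map (Bd B C n).mkQ)

def HasDim (ι : E → E) (ε : K7) (A B : Set E) (c : ℕ → ℕ) : Prop :=
  ∀ n, hd ι ε A B n = c n

/-- `A` is compact and `ι` acts on it continuously with `ι^6 = id`. -/
def Good (ι : E → E) (A : Set E) : Prop :=
  IsCompact A ∧ MapsTo ι A A ∧ ContinuousOn ι A ∧ ∀ x ∈ A, ι^[6] x = x

/-- `f` is a continuous map of pairs. -/
def PMap {E' : Type} [MetricSpace E'] (A B : Set E) (A' B' : Set E') (f : E → E') : Prop :=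
  ContinuousOn f A ∧ MapsTo f A A' ∧ MapsTo f B B'

/-- `f` and `g` are homotopic as maps of pairs. -/
def Htp {E' : Type} [MetricSpace E'] (A B : Set E) (A' B' : Set E') (f g : E → E') : Prop :=
  ∃ H : ℝ → E → E', ContinuousOn (fun q : ℝ × E => H q.1 q.2) (Icc 0 1 ×ˢ A) ∧
    (∀ t ∈ Icc (0 : ℝ) 1, MapsTo (H t) A A' ∧ MapsTo (H t) B B') ∧
    EqOn (H 0) f A ∧ EqOn (H 1) g A

end

/-- Shift of a sequence by one. -/
def sh (c : ℕ → ℕ) : ℕ → ℕ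
  | 0 => 0
  | n + 1 => c n

/-- The sequence with a single `1` at place `j`. -/
def dl (j : ℕ) : ℕ → ℕ := fun n => if n = j then 1 else 0

/-! ### Statements of wave A (cohomology) -/

/-- Basic algebra. -/
def StmtBas : Prop := ∀ (E : Type) [MetricSpace E],
  (∀ φ : Co E, dL E (dL E φ) = 0) ∧
  (∀ (E' : Type) (f : E → E') (φ : Co E'), dL E (pb f φ) = pb f (dL E' φ)) ∧
  (∀ (A B : Set E) (n : ℕ), B ⊆ A → Nul A n ≤ Nul B n) ∧
  (∀ (A : Set E) (n : ℕ), ∀ φ ∈ Nul A (n - 1), dL E φ ∈ Nul A n) ∧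
  (∀ (A B : Set E) (n : ℕ), B ⊆ A → Bd A B n ≤ Zc A B n) ∧
  (∀ (ι : E → E) (ε : K7) (A B : Set E), hd ι ε A B 0 = 0) ∧
  (∀ (E' : Type) [MetricSpace E'] (A : Set E) (A' : Set E') (f : E → E') (n : ℕ), IsCompact A →
    ContinuousOn f A → MapsTo f A A' → ∀ φ ∈ Nul A' n, pb f φ ∈ Nul A n) ∧
  (∀ (E' : Type) [MetricSpace E'] (A B : Set E) (A' B' : Set E') (f : E → E') (n : ℕ),
    IsCompact A → IsCompact B → B ⊆ A → PMap A B A' B' f →
    (∀ φ ∈ Zc A' B' n, pb f φ ∈ Zc A B n) ∧ ∀ φ ∈ Bd A' B' n, pb f φ ∈ Bd A B n) ∧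
  (∀ (E' : Type) (A : Set E) (f g : E → E') (n : ℕ) (φ : Co E'), EqOn f g A →
    pb f φ - pb g φ ∈ Nul A n)

/-- Averaging: `avg` is a chain map with values in exact eigencochains. -/
def StmtAvg : Prop := ∀ (E : Type) [MetricSpace E] (ι : E → E) (ε : K7), ε ≠ 0 →
  ∃ P : Co E →ₗ[K7] Co E, (∀ φ, dL E (P φ) = P (dL E φ)) ∧
    (∀ (A : Set E) (n : ℕ), Good ι A → ∀ φ ∈ Nul A n, P φ ∈ Nul A n) ∧
    (∀ (A : Set E) (φ : Co E) (l : List E), Good ι A → (∀ x ∈ l, x ∈ A) →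
      P φ (l.map ι) = ε * P φ l) ∧
    ∀ (A B : Set E) (n : ℕ), Good ι A → Good ι B → B ⊆ A →
      (∀ φ ∈ Zc A B n, P φ ∈ Ze ι ε A B n) ∧ (∀ φ ∈ Bd A B n, P φ ∈ Bd A B n) ∧
      ∀ φ ∈ Ze ι ε A B n, P φ - φ ∈ Bd A B n

/-- The long exact sequence of a triple, as ranks. -/
def StmtTri : Prop := ∀ (E : Type) [MetricSpace E] (ι : E → E) (ε : K7) (A B C : Set E), ε ≠ 0 →
  Good ι A → Good ι B → Good ι C → C ⊆ B → B ⊆ A →
  ∃ i q : ℕ → Cardinal, ∀ n, hd ι ε A B (n + 1) = q n + i (n + 1) ∧ i 0 = 0 ∧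
    hd ι ε A C n = i n + rk ι ε A B C n ∧ hd ι ε B C n = rk ι ε A B C n + q n

/-- Consequences of the long exact sequence. -/
def StmtTri2 : Prop := ∀ (E : Type) [MetricSpace E] (ι : E → E) (ε : K7) (A B C : Set E), ε ≠ 0 →
  Good ι A → Good ι B → Good ι C → C ⊆ B → B ⊆ A →
  (∀ c c' : ℕ → ℕ, HasDim ι ε A B c → HasDim ι ε B C c' → ∃ c'' q : ℕ → ℕ,
    HasDim ι ε A C c'' ∧ ∀ n, c n + c' n = c'' n + q n + sh q n) ∧
  (HasDim ι ε A B 0 → ∀ n, hd ι ε A C n = hd ι ε B C n) ∧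
  (HasDim ι ε B C 0 → ∀ n, hd ι ε A C n = hd ι ε A B n) ∧
  (HasDim ι ε A C 0 → ∀ n, hd ι ε A B (n + 1) = hd ι ε B C n) ∧
  (∀ c c' : ℕ → ℕ, HasDim ι ε A B c → HasDim ι ε B C c' → (∀ n, (c' n : Cardinal) ≤ rk ι ε A B C n) →
    HasDim ι ε A C (c + c')) ∧
  (∀ z c' : ℕ → ℕ, HasDim ι ε A C z → HasDim ι ε B C (z + c') →
    (∀ n, (z n : Cardinal) ≤ rk ι ε A B C n) → HasDim ι ε A B (sh c'))

/-- Homotopy invariance (prism operator). -/
def StmtHtp : Prop := ∀ (E E' : Type) [MetricSpace E] [MetricSpace E'] (A B : Set E)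
  (A' B' : Set E') (f g : E → E') (n : ℕ), IsCompact A → IsCompact B → B ⊆ A → B' ⊆ A' →
  Htp A B A' B' f g → ∀ φ ∈ Zc A' B' n, pb f φ - pb g φ ∈ Bd A B n

/-- Homotopy equivalences preserve the dimensions. -/
def StmtEqv : Prop := ∀ (E E' : Type) [MetricSpace E] [MetricSpace E'] (ι : E → E) (ι' : E' → E')
  (ε : K7) (A B : Set E) (A' B' : Set E') (f : E → E') (g : E' → E),
  Good ι A → Good ι B → B ⊆ A → Good ι' A' → Good ι' B' → B' ⊆ A' →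
  PMap A B A' B' f → PMap A' B' A B g → Htp A B A B (g ∘ f) id → Htp A' B' A' B' (f ∘ g) id →
  Htp A B A' B' (f ∘ ι) (ι' ∘ f) → ∀ n, hd ι ε A B n = hd ι' ε A' B' n

/-- Vanishing criteria, a point, and the lower bound for the rank of a restriction. -/
def StmtZero : Prop := ∀ (E : Type) [MetricSpace E] (ι : E → E) (ε : K7) (A B : Set E),
  IsCompact A → IsCompact B → B ⊆ A →
  (∀ r : E → E, Htp A B A B id r → MapsTo r A B → HasDim ι ε A B 0) ∧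
  (Htp A B A B ι id → ε ≠ 1 → HasDim ι ε A B 0) ∧
  (∀ p : E, HasDim id 1 ({p} : Set E) ∅ (dl 1)) ∧
  (∀ (E' : Type) [MetricSpace E'] (Z : Set E') (r : E → E') (s : E' → E), IsCompact Z →
    PMap A ∅ Z ∅ r → PMap Z ∅ B ∅ s → EqOn (r ∘ ι) r A → EqOn (r ∘ s) id Z →
    ∀ n, hd id 1 Z ∅ n ≤ rk ι 1 A B ∅ n)

/-- Excision. -/
def StmtExc : Prop := ∀ (E : Type) [MetricSpace E] (ι : E → E) (ε : K7) (A₁ A₂ U₁ U₂ : Set E),
  Good ι A₁ → Good ι A₂ → IsOpen U₁ → IsOpen U₂ → A₁ ∪ A₂ ⊆ U₁ ∪ U₂ →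
  (A₁ ∪ A₂) ∩ U₁ ⊆ A₁ → (A₁ ∪ A₂) ∩ U₂ ⊆ A₂ →
  ∀ n, hd ι ε (A₁ ∪ A₂) A₂ n = hd ι ε A₁ (A₁ ∩ A₂) n

/-- Additivity for disjoint pairs. -/
def StmtSum : Prop := ∀ (E : Type) [MetricSpace E] (ι : E → E) (ε : K7) (A₁ A₂ B₁ B₂ : Set E),
  Good ι A₁ → Good ι A₂ → Good ι B₁ → Good ι B₂ → B₁ ⊆ A₁ → B₂ ⊆ A₂ → Disjoint A₁ A₂ →
  ∀ n, hd ι ε (A₁ ∪ A₂) (B₁ ∪ B₂) n = hd ι ε A₁ B₁ n + hd ι ε A₂ B₂ n

/-- A pair made of `m` disjoint sheets permuted cyclically by `ι`. -/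
def StmtSheet : Prop := ∀ (E : Type) [MetricSpace E] (ι : E → E) (ε : K7) (m : ℕ)
  (A₀ B₀ A B : Set E), ε ≠ 0 → 0 < m → m ∣ 6 → Good ι A → Good ι B →
  Good ι^[m] A₀ → Good ι^[m] B₀ → B₀ ⊆ A₀ →
  A = (⋃ j ∈ Finset.range m, ι^[j] '' A₀) → B = (⋃ j ∈ Finset.range m, ι^[j] '' B₀) →
  (∀ j < m, ∀ j' < m, ∀ x ∈ A₀, ∀ x' ∈ A₀, ι^[j] x = ι^[j'] x' → j = j') →
  ∀ n, hd ι ε A B n = hd ι^[m] (ε ^ m) A₀ B₀ n

/-- Suspension. -/
def StmtSusp : Prop := ∀ (E : Type) [MetricSpace E] (ι : E → E) (ε : K7) (A B : Set E), ε ≠ 0 →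
  Good ι A → Good ι B → B ⊆ A → ∀ n,
  hd (Prod.map ι id) ε (A ×ˢ Icc (-1 : ℝ) 1)
    (B ×ˢ Icc (-1 : ℝ) 1 ∪ A ×ˢ {t : ℝ | 1 / 2 ≤ |t| ∧ |t| ≤ 1}) (n + 1) = hd ι ε A B n

/-- Iterated suspension: sup norm cube. -/
def StmtCube : Prop := ∀ (E : Type) [MetricSpace E] (ι : E → E) (ε : K7) (A : Set E)
  (c : ℕ → ℕ) (q : ℕ), ε ≠ 0 → Good ι A → HasDim ι ε A ∅ c →
  HasDim (Prod.map ι id) ε (A ×ˢ Metric.closedBall (0 : Fin q → ℝ) 1)
    (A ×ˢ (Metric.closedBall (0 : Fin q → ℝ) 1 \ Metric.ball 0 (1 / 2))) (sh^[q] c)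

/-- Iterated suspension: Euclidean ball, any radii. -/
def StmtBall : Prop := ∀ (E : Type) [MetricSpace E] (ι : E → E) (ε : K7) (A : Set E)
  (c : ℕ → ℕ) (q : ℕ) (r R : ℝ), ε ≠ 0 → Good ι A → HasDim ι ε A ∅ c → 0 < r → r < R →
  HasDim (Prod.map ι id) ε (A ×ˢ Metric.closedBall (0 : Eu q) R)
    (A ×ˢ (Metric.closedBall (0 : Eu q) R \ Metric.ball 0 r)) (sh^[q] c)

/-- Product with a circle. -/
def StmtCirc : Prop := ∀ (E : Type) [MetricSpace E] (Z : Set E) (z : ℕ → ℕ), IsCompact Z →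
  HasDim id 1 Z ∅ z → HasDim id 1 (Z ×ˢ Metric.sphere (0 : ℂ) 1) ∅ (z + sh z)

/-- Passing to a subtype. -/
def StmtSub : Prop := ∀ (E : Type) [MetricSpace E] (ι : E → E) (ε : K7) (S : Set E)
  (hι : MapsTo ι S S), Good ι S → S.Nonempty →
  ∀ n, hd (hι.restrict ι S S) ε (univ : Set S) ∅ n = hd ι ε S ∅ n

/-- Connectedness of the quotient from the invariant part of `H^0`. -/
def StmtConn : Prop := ∀ (E W : Type) [MetricSpace E] [TopologicalSpace W] (ι : E → E)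
  (π : E → W), Good ι (univ : Set E) → Continuous π → Function.Surjective π → (∀ e, π (ι e) = π e) →
  hd ι 1 (univ : Set E) ∅ 1 = 1 → ConnectedSpace W

/-- The final count. -/
def zP : ℕ → ℕ := fun n => [0, 1, 2, 8, 14, 14, 14, 8, 2, 1].getD n 0
def zM : ℕ → ℕ := fun n => [0, 0, 2, 4, 14, 24, 14, 4, 2].getD n 0

def StmtArith : Prop := ∀ (W : Type) (C : Finset W) (ind : W → ℕ) (s : ℕ) (q q' : ℕ → ℕ),
  (∀ n, (C.filter fun w => ind w + 1 = n).card = sh^[s] zP n + q n + sh q n) →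
  (∀ n, (C.filter fun w => ind w + 1 = n).card = sh^[s] zM n + q' n + sh q' n) → 88 ≤ C.card

end Vale.Agent.P265
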