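import Mathlib

/-! Definitions used in the statement for P265. -/

namespace Vale.Agent.P265

open scoped Manifold ContDiff

/-- Euclidean space of dimension `n`. -/
abbrev Eu (n : ℕ) := EuclideanSpace ℝ (Fin n)

section
variable {n k : ℕ} {M : Type} [TopologicalSpace M] [ChartedSpace (Eu n) M]

/-- A function on `M × ℝ^k` written in the preferred chart at the point `p`. -/
noncomputable def locFun (F : M × Eu k → ℝ) (p : M × Eu k) (u : Eu n × Eu k) : ℝ :=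
  F ((chartAt (Eu n) p.1).symm u.1, u.2)

/-- The coordinates of `p` in the preferred chart at `p`. -/
noncomputable def locPt (n : ℕ) [ChartedSpace (Eu n) M] (p : M × Eu k) : Eu n × Eu k :=
  (chartAt (Eu n) p.1 p.1, p.2)

/-- The critical points of `F`. -/
def critSet (n : ℕ) [ChartedSpace (Eu n) M] (F : M × Eu k → ℝ) : Set (M × Eu k) :=
  {p | fderiv ℝ (locFun (n := n) F p) (locPt n p) = 0}

/-- `F` is a smooth function on `M × ℝ^k` with nondegenerate Hessian at each critical point, equal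
to a nondegenerate quadratic form `Q z` for `‖z‖ ≥ R`. -/
def IsStableMorse (n : ℕ) [ChartedSpace (Eu n) M] (F : M × Eu k → ℝ) : Prop :=
  ContMDiff (𝓘(ℝ, Eu n).prod 𝓘(ℝ, Eu k)) 𝓘(ℝ, ℝ) ∞ F ∧
  (∀ p ∈ critSet n F, ∀ v : Eu n × Eu k,
    fderiv ℝ (fderiv ℝ (locFun (n := n) F p)) (locPt n p) v = 0 → v = 0) ∧
  ∃ (Q : QuadraticForm ℝ (Eu k)) (R : ℝ), Q.Nondegenerate ∧ 0 < R ∧
    ∀ (x : M) (z : Eu k), R ≤ ‖z‖ → F (x, z) = Q z

/-- The stable Morse number. -/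
noncomputable def stableMorse (n : ℕ) (M : Type) [TopologicalSpace M] [ChartedSpace (Eu n) M] :
    ℕ∞ :=
  sInf {c : ℕ∞ | ∃ (k : ℕ) (F : M × Eu k → ℝ), IsStableMorse n F ∧ c = (critSet n F).encard}

/-- A two-form `Ω` written in the preferred chart at `x`, evaluated on the constant vector fields
`v`, `w`. -/
noncomputable def locForm (Ω : M → Eu n →L[ℝ] Eu n →L[ℝ] ℝ) (x : M) (v w : Eu n) (u : Eu n) : ℝ :=
  Ω ((chartAt (Eu n) x).symm u)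
    (mfderiv 𝓘(ℝ, Eu n) 𝓘(ℝ, Eu n) (chartAt (Eu n) x).symm u v)
    (mfderiv 𝓘(ℝ, Eu n) 𝓘(ℝ, Eu n) (chartAt (Eu n) x).symm u w)

/-- `Ω` (a bilinear form on each tangent space) is a symplectic form: alternating, nondegenerate,
smooth and closed. -/
def IsSymplectic (Ω : M → Eu n →L[ℝ] Eu n →L[ℝ] ℝ) : Prop :=
  (∀ x v, Ω x v v = 0) ∧
  (∀ x v, (∀ w, Ω x v w = 0) → v = 0) ∧
  (∀ x v w, ContDiffOn ℝ ∞ (locForm Ω x v w) (chartAt (Eu n) x).target) ∧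
  ∀ x, ∀ u ∈ (chartAt (Eu n) x).target, ∀ a b c : Eu n,
    fderiv ℝ (locForm Ω x b c) u a + fderiv ℝ (locForm Ω x c a) u b +
      fderiv ℝ (locForm Ω x a b) u c = 0

/-- `H` is a smooth Hamiltonian, one-periodic in time, and `φ` is the flow of its Hamiltonian
vector field `X` (defined by `Ω (X, ·) = dH_t`) with `φ 0 = id`. -/
def IsHamFlow (Ω : M → Eu n →L[ℝ] Eu n →L[ℝ] ℝ) (H : ℝ → M → ℝ) (φ : ℝ → M → M) : Prop :=
  ContMDiff (𝓘(ℝ, ℝ).prod 𝓘(ℝ, Eu n)) 𝓘(ℝ, ℝ) ∞ (fun q : ℝ × M => H q.1 q.2) ∧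
  (∀ t, H (t + 1) = H t) ∧
  φ 0 = id ∧
  ∀ x t, MDifferentiableAt 𝓘(ℝ, ℝ) 𝓘(ℝ, Eu n) (fun s => φ s x) t ∧
    ∀ w : Eu n, Ω (φ t x) (mfderiv 𝓘(ℝ, ℝ) 𝓘(ℝ, Eu n) (fun s => φ s x) t (1 : ℝ)) w =
      mfderiv 𝓘(ℝ, Eu n) 𝓘(ℝ, ℝ) (H t) (φ t x) w

/-- Every fixed point of `f` is nondegenerate: `f` is differentiable there and `1` is not an
eigenvalue of the differential. -/
def NondegFix (n : ℕ) [ChartedSpace (Eu n) M] (f : M → M) : Prop :=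
  ∀ x, f x = x → MDifferentiableAt 𝓘(ℝ, Eu n) 𝓘(ℝ, Eu n) f x ∧
    ∀ v : Eu n, (mfderiv 𝓘(ℝ, Eu n) 𝓘(ℝ, Eu n) f x v : Eu n) = v → v = 0

end

end Vale.Agent.P265
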