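import Vale.Agent.P265.Geo

/-! The explicit manifolds `X`, `Y`, `Σ` and the statements of wave D. -/

namespace Vale.Agent.P265

open Set Topology Complex
open scoped ContDiff ComplexConjugate

noncomputable section

/-! ### The four-manifold `X` -/

abbrev VX := ℂ × ℂ × ℝ × ℂ × ℂ
abbrev ca (p : VX) : ℂ := p.1
abbrev cb (p : VX) : ℂ := p.2.1
abbrev cx (p : VX) : ℝ := p.2.2.1
abbrev cal (p : VX) : ℂ := p.2.2.2.1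
abbrev cbe (p : VX) : ℂ := p.2.2.2.2

def xi (p : VX) : ℂ := conj (cal p) * ca p ^ 2 - 1 / 2

def XX : Set VX := {p | normSq (cal p) = 1 ∧ normSq (cbe p) = 1 ∧
  conj (cal p) * ca p ^ 2 - conj (cbe p) * cb p ^ 3 = 1 ∧ normSq (xi p) + cx p ^ 2 = 1}

def dxi (p u : VX) : ℂ := conj (cal u) * ca p ^ 2 + 2 * conj (cal p) * ca p * ca u

def tanX (p u : VX) : Prop := (conj (cal p) * cal u).re = 0 ∧ (conj (cbe p) * cbe u).re = 0 ∧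
  dxi p u = conj (cbe u) * cb p ^ 3 + 3 * conj (cbe p) * cb p ^ 2 * cb u ∧
  (conj (xi p) * dxi p u).re + cx p * cx u = 0

def lX : List (Tr VX) :=
  [(cx, fun p => (xi p).re, fun p => (xi p).im),
   (fun p => (xi p).re, fun p => (xi p).im, cx),
   (fun p => (xi p).im, cx, fun p => (xi p).re),
   (cx, fun p => (ca p).re, fun p => (ca p).im),
   (fun p => -(cx p * (cal p).re) / 4, fun p => normSq (ca p), fun p => (cal p).im),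
   (fun p => cx p * (cal p).im / 4, fun p => normSq (ca p), fun p => (cal p).re),
   (cx, fun p => (cb p).re, fun p => (cb p).im),
   (fun p => -(cx p * (cbe p).re) / 6, fun p => normSq (cb p), fun p => (cbe p).im),
   (fun p => cx p * (cbe p).im / 6, fun p => normSq (cb p), fun p => (cbe p).re),
   (fun p => (cal p).re * (cbe p).re, fun p => (cal p).im, fun p => (cbe p).im),
   (fun p => -((cal p).re * (cbe p).im), fun p => (cal p).im, fun p => (cbe p).re),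
   (fun p => -((cal p).im * (cbe p).re), fun p => (cal p).re, fun p => (cbe p).im),
   (fun p => (cal p).im * (cbe p).im, fun p => (cal p).re, fun p => (cbe p).re)]

def StmtXAtl : Prop :=
  IsCompact XX ∧ Atl (Eu 4) XX ∧ ∀ p ∈ XX, Tan XX p = {u | tanX p u}

def StmtXC : Prop := SmL lX ∧
  ∀ p ∈ XX, ∀ u v w, tanX p u → tanX p v → tanX p w → dfrm lX p u v w = 0

def StmtXN : Prop := ∀ p ∈ XX, ∀ v, tanX p v → (∀ w, tanX p w → frm lX p v w = 0) → v = 0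

/-! ### The function on `X` -/

abbrev S2 := ℂ × ℝ
def ip (p q : S2) : ℝ := p.1.re * q.1.re + p.1.im * q.1.im + p.2 * q.2

def nr (p : VX) : ℝ := √(normSq (ca p) + normSq (cb p))
def fX (p : VX) : ℝ := ((ca p).re + (cb p).re) / nr p
def mX (p : VX) : ℝ := cx p / √(cx p ^ 2 + (xi p).im ^ 2)
def e1 (p : VX) : VX := (I * ca p, 0, 0, 2 * I * cal p, 0)
def e2 (p : VX) : VX := (0, I * cb p, 0, 0, 3 * I * cbe p)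
def lft (p : VX) (δ : ℂ) (d : ℝ) : VX :=
  (cal p * δ / (2 * ca p), cbe p * δ / (3 * cb p ^ 2), d, 0, 0)
def cc (p : VX) : ℂ := 1 / (2 * (xi p + 1 / 2)) - 1 / (3 * (xi p - 1 / 2))
def W0 (p : VX) : VX :=
  lft p (cx p * I * conj (cc p)) (-(xi p * cc p).im) -
    (cx p * I * conj (cc p) / (2 * (xi p + 1 / 2))).im • e1 p -
    (cx p * I * conj (cc p) / (3 * (xi p - 1 / 2))).im • e2 p
def Dp (p : VX) : ℝ := cx p ^ 2 * (cc p).re + (xi p).im * (xi p * cc p).im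
def PhiF (η ε : ℝ) (p : VX) : ℝ :=
  √2 + fX p + ε * Real.smoothTransition ((fX p - (√2 - η)) / (η / 2)) * mX p

def StmtF0 : Prop :=
  (∀ p ∈ XX, 0 < nr p ∧ |fX p| ≤ √2 ∧ ContDiffAt ℝ ∞ fX p ∧
    (fX p = √2 ↔ ca p = cb p ∧ (ca p).im = 0 ∧ 0 < (ca p).re) ∧
    (fX p = -√2 ↔ ca p = cb p ∧ (ca p).im = 0 ∧ (ca p).re < 0) ∧
    (‖ca p‖ = ‖cb p‖ → |(xi p).re| < 2 / 5) ∧
    (|(xi p).re| ≤ 2 / 5 → ca p ≠ 0 ∧ cb p ≠ 0 ∧ 0 < cx p ^ 2 + (xi p).im ^ 2 ∧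
      ContDiffAt ℝ ∞ mX p) ∧
    cal p * (xi p + 1 / 2) = ca p ^ 2 ∧ cbe p * (xi p - 1 / 2) = cb p ^ 3) ∧
  ∃ η : ℝ, 0 < η ∧ η ≤ 1 ∧ ∀ p ∈ XX, √2 - η ≤ |fX p| → |(xi p).re| < 2 / 5

def StmtF1 : Prop := ∀ p ∈ XX,
  (∀ u, fderiv ℝ fX p u = ((ca u).re + (cb u).re) / nr p - ((ca p).re + (cb p).re) *
    ((conj (ca p) * ca u).re + (conj (cb p) * cb u).re) / nr p ^ 3) ∧
  tanX p (e1 p) ∧ tanX p (e2 p) ∧ dxi p (e1 p) = 0 ∧ dxi p (e2 p) = 0 ∧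
  fderiv ℝ fX p (e1 p) = -(ca p).im / nr p ∧ fderiv ℝ fX p (e2 p) = -(cb p).im / nr p ∧
  (∀ (δ : ℂ) (d : ℝ), ca p ≠ 0 → cb p ≠ 0 → (conj (xi p) * δ).re + cx p * d = 0 →
    tanX p (lft p δ d) ∧ dxi p (lft p δ d) = δ ∧
    ((ca p).im = 0 → (cb p).im = 0 → fderiv ℝ fX p (lft p δ d) =
      ((cb p).re - (ca p).re) * (ca p).re * (cb p).re / nr p ^ 3 * (δ * cc p).re)) ∧
  (∀ u, ca p ≠ 0 → cb p ≠ 0 → (ca p).im = 0 → (cb p).im = 0 → tanX p u → dxi p u = 0 →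
    cx u = 0 → (ca u).im = 0 → (cb u).im = 0 → u = 0) ∧
  (ca p ≠ 0 → cb p ≠ 0 → (∀ (δ : ℂ) (d : ℝ), (conj (xi p) * δ).re + cx p * d = 0 →
    (δ * cc p).re = 0) → cx p = 0 ∧ (xi p).im = 0) ∧
  ((∀ u, tanX p u → fderiv ℝ fX p u = 0) → (ca p).im = 0 ∧ (cb p).im = 0 ∧ ca p ≠ 0 ∧ cb p ≠ 0 ∧
    (ca p = cb p ∨ (cx p = 0 ∧ (xi p).im = 0)))

def StmtW0 : Prop := ∀ p ∈ XX, |(xi p).re| ≤ 2 / 5 →
  (∀ u, fderiv ℝ mX p u = -(xi p).im * (cx p * (dxi p u).im - (xi p).im * cx u) /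
    √(cx p ^ 2 + (xi p).im ^ 2) ^ 3) ∧
  tanX p (W0 p) ∧ fderiv ℝ fX p (W0 p) = 0 ∧
  fderiv ℝ mX p (W0 p) = -(xi p).im * Dp p / √(cx p ^ 2 + (xi p).im ^ 2) ^ 3 ∧
  0 < Dp p ∧ ContinuousAt W0 p ∧ ContinuousAt Dp p

/-- Curves along which `a` and `b` stay real. -/
def StmtRC : Prop := ∀ p ∈ XX, ∀ u, ca p ≠ 0 → cb p ≠ 0 → (ca p).im = 0 → (cb p).im = 0 →
  tanX p u → (ca u).im = 0 → (cb u).im = 0 →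
  ∃ (γ : ℝ → VX) (n : ℝ → ℝ), γ 0 = p ∧ HasDerivAt γ u 0 ∧ n 0 = 1 ∧ ContinuousAt n 0 ∧
    ∀ᶠ t in 𝓝 (0 : ℝ), γ t ∈ XX ∧ 0 < n t ∧ xi (γ t) = (xi p + t * dxi p u) / n t ∧
      cx (γ t) = (cx p + t * cx u) / n t ∧ (ca (γ t)).im = 0 ∧ (cb (γ t)).im = 0

def S8 : Set VX := {p | p ∈ XX ∧ (ca p).im = 0 ∧ (cb p).im = 0 ∧ cx p = 0 ∧ (xi p).im = 0}
def Stwo : Set VX := {p | p ∈ XX ∧ ca p = cb p ∧ (ca p).im = 0 ∧ 0 < (ca p).re ∧ (xi p).im = 0}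

def StmtF2 : Prop := S8.encard ≤ 8 ∧
  ∀ p ∈ S8, ∀ Φ : VX → ℝ, (Φ =ᶠ[𝓝 p] fun q => √2 + fX q) → ND XX id Φ p

def StmtF3 : Prop := ∀ η : ℝ, 0 < η → η ≤ 1 →
  (∀ p ∈ XX, √2 - η ≤ |fX p| → |(xi p).re| < 2 / 5) →
  ∃ ε : ℝ, 0 < ε ∧ ε ≤ 1 ∧ ∀ p ∈ XX, √2 - η ≤ fX p →
    (∀ u, tanX p u → fderiv ℝ (PhiF η ε) p u = 0) → p ∈ Stwo

def StmtF4 : Prop := Stwo.encard ≤ 2 ∧ ∀ p ∈ Stwo, ∀ (ε : ℝ) (Φ : VX → ℝ), ε ≠ 0 →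
  (Φ =ᶠ[𝓝 p] fun q => √2 + fX q + ε * mX q) → ND XX id Φ p

def CX (Φ : VX → ℝ) : Set VX :=
  {p | p ∈ XX ∧ -√2 < fX p ∧ ∀ u ∈ Tan XX p, fderiv ℝ Φ p u = 0}

def PhiOK (Φ : VX → ℝ) (η : ℝ) : Prop := 0 < η ∧ (∀ p ∈ XX, ContDiffAt ℝ ∞ Φ p) ∧
  (∀ p ∈ XX, fX p < -√2 + η → Φ =ᶠ[𝓝 p] fun q => √2 + fX q) ∧
  (∀ p ∈ XX, -√2 < fX p → 0 < Φ p) ∧ (CX Φ).encard ≤ 10 ∧ ∀ p ∈ CX Φ, ND XX id Φ p

def StmtPhi : Prop := ∃ Φ η, PhiOK Φ η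

def ch2 (p : VX) : ℝ := Real.smoothTransition ((81 / 400 - (xi p).re ^ 2) / (17 / 400))
def nt (p : VX) : ℂ := ch2 p * (1 / 4 - xi p ^ 2) + (1 - ch2 p)
def gam (p : VX) : ℂ := -(cal p * cbe p * nt p) / ‖nt p‖
def v0 (p : VX) : S2 := ((ca p - conj (cb p)) / nr p + (1 + (gam p).re : ℝ), (gam p).im)
def yv (p : VX) : S2 :=
  ((((ca p).re - (cb p).re) / (√2 * nr p) : ℝ) + I * ((ca p).im / nr p : ℝ), (cb p).im / nr p)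

def StmtV0 : Prop := (∀ p, nr p ≠ 0 → ip (yv p) (yv p) = 1 - fX p ^ 2 / 2) ∧
  ∀ p ∈ XX, ContDiffAt ℝ ∞ v0 p ∧ ContDiffAt ℝ ∞ yv p ∧ (v0 p = 0 → fX p = -√2) ∧
    (|(xi p).re| ≤ 2 / 5 → gam p = ca p ^ 2 * cb p ^ 3 / (‖ca p‖ ^ 2 * ‖cb p‖ ^ 3 : ℝ))

def StmtV1 : Prop := ∃ η : ℝ, 0 < η ∧ ∀ p ∈ XX, -√2 < fX p → fX p < -√2 + η →
  0 < ip (v0 p) (yv p)

def StmtV3 : Prop := ∀ p ∈ XX, fX p = -√2 → ∀ e : S2, e ≠ 0 →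
  ∃ u, tanX p u ∧ ip (fderiv ℝ yv p u) e ≠ 0

def VOK (v : VX → S2) (Φ : VX → ℝ) : Prop := (∀ p ∈ XX, ContDiffAt ℝ ∞ v p) ∧
  (∀ p ∈ XX, ip (v p) (v p) = Φ p) ∧
  ∀ p ∈ XX, v p = 0 → ∀ e : S2, ip e e = 1 → ∃ u ∈ Tan XX p, ip (fderiv ℝ v p u) e ≠ 0

def StmtV : Prop := ∀ Φ η, PhiOK Φ η → ∃ v, VOK v Φ

/-! ### The four-manifold `Y` -/

abbrev VY := S2 × S2 × S2 × S2

def onS (p : S2) : Prop := normSq p.1 + p.2 ^ 2 = 1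
/-- Homogeneous coordinates of a point of the sphere. -/
def rp (c : Bool) (p : S2) : ℂ × ℂ := if c then (1 + p.2, conj p.1) else (p.1, 1 - p.2)

def YY : Set VY := {y | onS y.1 ∧ onS y.2.1 ∧ onS y.2.2.1 ∧ onS y.2.2.2 ∧
  (∀ c₁ c₂ c₃, (rp c₁ y.1).1 * (rp c₂ y.2.1).2 * (rp c₃ y.2.2.1).2 =
    (rp c₁ y.1).2 * (rp c₂ y.2.1).1 * (rp c₃ y.2.2.1).1) ∧
  ∀ c₁ c₂ c₄, (rp c₄ y.2.2.2).1 * (rp c₁ y.1).2 * (rp c₂ y.2.1).2 =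
    (rp c₄ y.2.2.2).2 * (rp c₁ y.1).1 * (rp c₂ y.2.1).1}

def sS (u : ℂ) : S2 := (2 * u / (1 + normSq u : ℝ), (normSq u - 1) / (1 + normSq u))
def st (p : S2) : ℂ := p.1 / (1 - p.2 : ℝ)
def fl (p : S2) : S2 := (conj p.1, -p.2)
def P0 (u : ℂ × ℂ) : VY := (sS (u.1 * u.2), sS u.2, sS u.1, sS (u.1 * u.2 ^ 2))
def L0 (y : VY) : ℂ × ℂ := (st y.2.2.1, st y.2.1)
def V0 : Set VY := {y | y.1.2 ≠ 1 ∧ y.2.1.2 ≠ 1 ∧ y.2.2.1.2 ≠ 1 ∧ y.2.2.2.2 ≠ 1}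
def sy1 (c : Bool) (y : VY) : VY := if c then (fl y.1, y.2.1, fl y.2.2.2, fl y.2.2.1) else y
def sy2 (c : Bool) (y : VY) : VY := if c then (y.1, fl y.2.1, y.2.2.2, y.2.2.1) else y
def sy3 (c : Bool) (y : VY) : VY := if c then (y.2.1, y.1, fl y.2.2.1, y.2.2.2) else y
def symY (c : Bool × Bool × Bool) (y : VY) : VY := sy3 c.2.2 (sy2 c.2.1 (sy1 c.1 y))
def symI (c : Bool × Bool × Bool) (y : VY) : VY := sy1 c.1 (sy2 c.2.1 (sy3 c.2.2 y))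

def lS (r : VY → S2) : List (Tr VY) :=
  [(fun y => (r y).2, fun y => (r y).1.re, fun y => (r y).1.im),
   (fun y => (r y).1.re, fun y => (r y).1.im, fun y => (r y).2),
   (fun y => (r y).1.im, fun y => (r y).2, fun y => (r y).1.re)]
def lY : List (Tr VY) :=
  lS (fun y => y.1) ++ lS (fun y => y.2.1) ++ lS (fun y => y.2.2.1) ++ lS (fun y => y.2.2.2)

def det3 (p u v : S2) : ℝ := p.2 * (u.1.re * v.1.im - v.1.re * u.1.im) +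
  p.1.re * (u.1.im * v.2 - v.1.im * u.2) + p.1.im * (u.2 * v.1.re - v.2 * u.1.re)

def rotS (θ : ℝ) : S2 →L[ℝ] S2 :=
  (ContinuousLinearMap.mul ℝ ℂ (exp (θ * I))).prodMap (ContinuousLinearMap.id ℝ ℝ)
def rhoY (t : ℝ) : VY →L[ℝ] VY :=
  (rotS (Real.pi * t)).prodMap ((rotS (Real.pi * t)).prodMap
    ((ContinuousLinearMap.id ℝ S2).prodMap (rotS (2 * Real.pi * t))))
def KY (y : VY) : ℝ := Real.pi * (y.1.2 + y.2.1.2 + 2 * y.2.2.2.2)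

def pY (y : VY) : S2 :=
  ((1 + y.1.2 * y.2.1.2) / 2) • y.2.2.1 + ((1 - y.1.2 * y.2.1.2) / 2) • y.2.2.2
def pole (c : Bool) : S2 := (0, if c then 1 else -1)
def qY (c : Bool × Bool) (e : S2) : VY :=
  if c.1 = c.2 then (pole c.1, pole c.2, e, pole c.1) else (pole c.1, pole c.2, pole c.1, e)
def dq (c : Bool × Bool) (e : S2) : VY := if c.1 = c.2 then (0, 0, e, 0) else (0, 0, 0, e)

def StmtYA : Prop := IsCompact YY ∧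
  ∃ p : Patch (ℂ × ℂ) YY, p.P = P0 ∧ p.L = L0 ∧ p.U = univ ∧ p.O = V0

def StmtYB : Prop := (∀ c, MapsTo (symY c) YY YY ∧ MapsTo (symI c) YY YY ∧
    (∀ y, symI c (symY c y) = y) ∧ (∀ y, symY c (symI c y) = y)) ∧
  (∀ y ∈ YY, ∃ c, symY c y ∈ V0) ∧
  ∀ c, ∃ p : Patch (ℂ × ℂ) YY, p.P = symI c ∘ P0 ∧ p.L = L0 ∘ symY c ∧ p.U = univ ∧
    p.O = symY c ⁻¹' V0

/-- Evaluation of the form on `Y`, closedness, tangency to the spheres. -/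
def StmtYC : Prop := SmL lY ∧
  (∀ y u v : VY, frm lY y u v = det3 y.1 u.1 v.1 + det3 y.2.1 u.2.1 v.2.1 +
    det3 y.2.2.1 u.2.2.1 v.2.2.1 + det3 y.2.2.2 u.2.2.2 v.2.2.2) ∧
  (∀ y ∈ YY, ∀ u ∈ Tan YY y, ip y.1 u.1 = 0 ∧ ip y.2.1 u.2.1 = 0 ∧ ip y.2.2.1 u.2.2.1 = 0 ∧
    ip y.2.2.2 u.2.2.2 = 0) ∧
  ∀ y ∈ YY, ∀ u ∈ Tan YY y, ∀ v ∈ Tan YY y, ∀ w ∈ Tan YY y, dfrm lY y u v w = 0

def StmtYN : Prop := ∀ y ∈ YY, ∀ v ∈ Tan YY y, (∀ w ∈ Tan YY y, frm lY y v w = 0) → v = 0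

def StmtYRot : Prop := RotData YY lY rhoY KY

def StmtYFix : Prop := ContDiff ℝ ∞ pY ∧ (∀ y, pY (rhoY 1 y) = pY y) ∧
  (∀ y ∈ YY, rhoY 1 y = y → ∃ c e, ip e e = 1 ∧ y = qY c e) ∧
  (∀ c e, ip e e = 1 → qY c e ∈ YY) ∧ (∀ c e, pY (qY c e) = e) ∧
  (∀ c e δ, qY c (e + δ) = qY c e + dq c δ) ∧ (∀ c (t : ℝ) δ, dq c (t • δ) = t • dq c δ) ∧
  (∀ c e δ, fderiv ℝ pY (qY c e) (dq c δ) = δ) ∧
  (∀ (c : Bool × Bool) (γ : ℝ → S2) (δ : S2) (t : ℝ), HasDerivAt γ δ t →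
    HasDerivAt (fun s => qY c (γ s)) (dq c δ) t) ∧
  (∀ c e δ, ip e e = 1 → ip e δ = 0 → dq c δ ∈ Tan YY (qY c e)) ∧
  (∀ c δ, ‖dq c δ‖ = ‖δ‖) ∧
  ∀ c e, ip e e = 1 → ∀ u ∈ Tan YY (qY c e), rhoY 1 u = u → ∃ δ, ip e δ = 0 ∧ u = dq c δ

def hS (u : ℂ) : ℝ := (normSq u - 1) / (1 + normSq u)
def fab (a b : ℝ) (u : ℂ × ℂ) : ℝ :=
  a * hS (u.1 * u.2) + b * hS u.2 + (a - b) * hS u.1 + (a + b) * hS (u.1 * u.2 ^ 2)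

def StmtYMor : Prop := ∀ a b : ℝ, b ≠ 0 → a ≠ b → ContDiff ℝ ∞ (fab a b) ∧
  (∀ u, u ≠ 0 → fderiv ℝ (fab a b) u ≠ 0) ∧ fderiv ℝ (fab a b) 0 = 0 ∧
  ∀ u, fderiv ℝ (fderiv ℝ (fab a b)) 0 u u = 4 * (a - b) * ‖u.1‖ ^ 2 + 4 * b * ‖u.2‖ ^ 2

def ix (p q : ℝ) : ℕ := (if p < 0 then 2 else 0) + (if q < 0 then 2 else 0)

def StmtT4 : Prop := ∀ p q : ℝ, p ≠ 0 → q ≠ 0 →
  ∃ (μ : ℕ) (T : (ℂ × ℂ) ≃L[ℝ] Eu (ix p q) × Eu μ), ∀ u,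
    4 * p * ‖u.1‖ ^ 2 + 4 * q * ‖u.2‖ ^ 2 = 2 * qf (T u)

def zY : ℕ → ℕ := fun n => [0, 1, 0, 6, 0, 1].getD n 0

def StmtYCoh : Prop := HasDim id 1 YY ∅ zY

/-! ### The function on `X × Y` -/

def SM : Set (VX × VY) := XX ×ˢ YY
def rhoM (t : ℝ) : VX × VY →L[ℝ] VX × VY := (ContinuousLinearMap.id ℝ VX).prodMap (rhoY t)
def GG (v : VX → S2) (q : VX × VY) : ℝ := ip (v q.1) (pY q.2)

def StmtG1 : Prop := ∀ Φ η v, PhiOK Φ η → VOK v Φ →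
  (∀ q ∈ SM, ContDiffAt ℝ ∞ (GG v) q) ∧ (∀ q, GG v (rhoM 1 q) = GG v q) ∧
  (∀ q ∈ CritFix SM (rhoM 1) (GG v), q.1 ∈ CX Φ ∧ ∃ (c : Bool × Bool) (s : ℝ),
    (s = 1 ∨ s = -1) ∧ q.2 = qY c ((s / √(Φ q.1)) • v q.1)) ∧
  (CritFix SM (rhoM 1) (GG v)).encard ≤ 80

def StmtG2 : Prop := ∀ Φ η v, PhiOK Φ η → VOK v Φ →
  ∀ q ∈ CritFix SM (rhoM 1) (GG v), ND SM (rhoM 1) (GG v) q

/-! ### The genus two surface and the six-fold covering -/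

abbrev VS := ℂ × ℂ × ℝ
def xiS (p : VS) : ℂ := p.1 ^ 2 - 1 / 2
def Sig : Set VS := {p | p.1 ^ 2 - p.2.1 ^ 3 = 1 ∧ normSq (xiS p) + p.2.2 ^ 2 = 1}
def om : ℂ := exp (2 * Real.pi / 3 * I)
def gS (p : VS) : VS := (-p.1, om * p.2.1, p.2.2)
def slab (u v : ℝ) : Set VS := Sig ∩ {p | u ≤ p.2.2 ∧ p.2.2 ≤ v}
def piece (u v : ℝ) : Set VS := slab (1 / 4) 1 ∩ {p | u ≤ (xiS p).re ∧ (xiS p).re ≤ v}

/-- Compactness and invariance of all the pieces. -/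
def StmtSG : Prop := ∀ (E : Type) [MetricSpace E] (Z : Set E), IsCompact Z →
  om ^ 3 = 1 ∧ om ≠ 1 ∧ IsCompact Sig ∧ (∀ p, gS^[6] p = p) ∧ Continuous gS ∧
  (∀ p, xiS (gS p) = xiS p) ∧ slab (-1) 1 = Sig ∧ piece (-1) 1 = slab (1 / 4) 1 ∧
  Good (Prod.map gS id) (Sig ×ˢ Z) ∧ (∀ u v, Good (Prod.map gS id) (slab u v ×ˢ Z)) ∧
  (∀ u v, Good (Prod.map gS id) (piece u v ×ˢ Z)) ∧
  (piece (-1 / 4) (1 / 4)).Nonempty ∧ (slab (1 / 4) (1 / 2)).Nonempty ∧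
  (slab (-1) (-1 / 4)).Nonempty

/-- Parametrisation of the middle band by a circle times an interval. -/
def StmtPar : Prop := ∃ (B : ℂ × ℝ → VS) (θ : VS → ℂ) (τ : ℝ),
  ContinuousOn B (Metric.sphere 0 1 ×ˢ Icc (-1 / 2) (1 / 2)) ∧
  ContinuousOn θ (slab (-1 / 2) (1 / 2)) ∧
  (∀ q ∈ Metric.sphere (0 : ℂ) 1 ×ˢ Icc (-1 / 2 : ℝ) (1 / 2),
    B q ∈ Sig ∧ (B q).2.2 = q.2 ∧ θ (B q) = q.1) ∧
  ∀ p ∈ slab (-1 / 2) (1 / 2), ‖θ p‖ = 1 ∧ B (θ p, p.2.2) = p ∧ θ (gS p) = exp (τ * I) * θ p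

def StmtBand : Prop := ∀ (E : Type) [MetricSpace E] (Z : Set E) (z : ℕ → ℕ), IsCompact Z →
  HasDim id 1 Z ∅ z →
  (∀ u v : ℝ, -1 / 2 ≤ u → u ≤ v → v ≤ 1 / 2 →
    HasDim (Prod.map gS id) 1 (slab u v ×ˢ Z) ∅ (z + sh z) ∧
    HasDim (Prod.map gS id) 3 (slab u v ×ˢ Z) ∅ 0) ∧
  HasDim (Prod.map gS id) 1 (slab (-1 / 2) (1 / 2) ×ˢ Z) (slab (-1 / 2) (-1 / 4) ×ˢ Z) 0

def StmtU2 : Prop := ∀ (E : Type) [MetricSpace E] (Z : Set E) (z : ℕ → ℕ), IsCompact Z →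
  HasDim id 1 Z ∅ z → HasDim (Prod.map gS id) 1 (piece (-1) (1 / 4) ×ˢ Z) ∅ z ∧
    HasDim (Prod.map gS id) 3 (piece (-1) (1 / 4) ×ˢ Z) ∅ 0

def StmtU3 : Prop := ∀ (E : Type) [MetricSpace E] (Z : Set E) (z : ℕ → ℕ), IsCompact Z →
  HasDim id 1 Z ∅ z → HasDim (Prod.map gS id) 1 (piece (-1 / 4) 1 ×ˢ Z) ∅ z ∧
    HasDim (Prod.map gS id) 3 (piece (-1 / 4) 1 ×ˢ Z) ∅ 0

def StmtU23 : Prop := ∀ (E : Type) [MetricSpace E] (Z : Set E) (z : ℕ → ℕ), IsCompact Z →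
  HasDim id 1 Z ∅ z → HasDim (Prod.map gS id) 1 (piece (-1 / 4) (1 / 4) ×ˢ Z) ∅ z ∧
    HasDim (Prod.map gS id) 3 (piece (-1 / 4) (1 / 4) ×ˢ Z) ∅ z

def StmtCap : Prop := ∀ (E : Type) [MetricSpace E] (Z : Set E) (z : ℕ → ℕ), IsCompact Z →
  HasDim id 1 Z ∅ z →
  HasDim (Prod.map gS id) 1 (slab (1 / 4) 1 ×ˢ Z) ∅ z ∧
  HasDim (Prod.map gS id) 3 (slab (1 / 4) 1 ×ˢ Z) ∅ (sh z) ∧
  HasDim (Prod.map gS id) 1 (slab (-1) (-1 / 4) ×ˢ Z) ∅ z ∧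
  HasDim (Prod.map gS id) 3 (slab (-1) (-1 / 4) ×ˢ Z) ∅ (sh z)

def StmtSig1 : Prop := ∀ (E : Type) [MetricSpace E] (Z : Set E) (z : ℕ → ℕ), IsCompact Z →
  HasDim id 1 Z ∅ z → HasDim (Prod.map gS id) 1 (Sig ×ˢ Z) ∅ (sh (sh z) + z)

def StmtSig3 : Prop := ∀ (E : Type) [MetricSpace E] (Z : Set E) (z : ℕ → ℕ), IsCompact Z →
  HasDim id 1 Z ∅ z → HasDim (Prod.map gS id) 3 (Sig ×ˢ Z) ∅ (sh z + sh z)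

abbrev VE := VS × ((VY × ℂ) × ℂ)
def Et : Set VE := Sig ×ˢ ((YY ×ˢ Metric.sphere 0 1) ×ˢ Metric.sphere 0 1)
def ioE (e : VE) : VE := (gS e.1, ((e.2.1.1, -e.2.1.2), conj om * e.2.2))
def piE (e : VE) : VX × VY :=
  ((e.2.1.2 * e.1.1, e.2.2 * e.1.2.1, e.1.2.2, e.2.1.2 ^ 2, e.2.2 ^ 3), e.2.1.1)

def StmtTot : Prop := Good ioE Et ∧ Et.Nonempty ∧ HasDim ioE 1 Et ∅ zP ∧ HasDim ioE 3 Et ∅ zM

def StmtCovE : Prop := ∃ (hι : MapsTo ioE Et Et) (hπ : MapsTo piE Et SM),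
  Cov (hπ.restrict piE Et SM) (hι.restrict ioE Et Et) 6

end

end Vale.Agent.P265
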