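import Vale.Agent.P265.Mor

/-! Embedded submanifolds, two-forms and Hamiltonian flows in an ambient vector space. -/

namespace Vale.Agent.P265

open Set Topology Asymptotics
open scoped Manifold ContDiff

section
variable {V : Type} [NormedAddCommGroup V] [NormedSpace ℝ V]

/-- A smooth local parametrisation of `S ⊆ V` with a smooth left inverse. -/
structure Patch (D : Type) [NormedAddCommGroup D] [NormedSpace ℝ D] (S : Set V) where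
  P : D → V
  L : V → D
  U : Set D
  O : Set V
  oU : IsOpen U
  oO : IsOpen O
  sP : ContDiffOn ℝ ∞ P U
  sL : ContDiffOn ℝ ∞ L O
  mP : MapsTo P U (S ∩ O)
  mL : MapsTo L (S ∩ O) U
  LP : ∀ u ∈ U, L (P u) = u
  PL : ∀ x ∈ S ∩ O, P (L x) = x

def Atl (D : Type) [NormedAddCommGroup D] [NormedSpace ℝ D] (S : Set V) : Prop :=
  ∀ x ∈ S, ∃ p : Patch D S, x ∈ p.O

/-- Velocities of curves in `S`. -/
def Tan (S : Set V) (x : V) : Set V :=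
  {v | ∃ γ : ℝ → V, γ 0 = x ∧ HasDerivAt γ v 0 ∧ ∀ᶠ t in 𝓝 (0 : ℝ), γ t ∈ S}

variable {D : Type} [NormedAddCommGroup D] [NormedSpace ℝ D] {S : Set V}

open Classical in
/-- The chart of the subtype given by a patch. -/
noncomputable def Patch.chart (p : Patch D S) (x₀ : S) : OpenPartialHomeomorph S D where
  toFun x := p.L x
  invFun u := if h : u ∈ p.U then ⟨p.P u, (p.mP h).1⟩ else x₀
  source := Subtype.val ⁻¹' p.O
  target := p.U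
  map_source' x hx := p.mL ⟨x.2, hx⟩
  map_target' u hu := by
    simp only [hu, dif_pos, mem_preimage]; exact (p.mP hu).2
  left_inv' x hx := by
    have h : p.L x ∈ p.U := p.mL ⟨x.2, hx⟩
    simp only [h, dif_pos]; exact Subtype.ext (p.PL x ⟨x.2, hx⟩)
  right_inv' u hu := by simp only [hu, dif_pos]; exact p.LP u hu
  open_source := p.oO.preimage continuous_subtype_val
  open_target := p.oU
  continuousOn_toFun := p.sL.continuousOn.comp continuous_subtype_val.continuousOn fun _ h => h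
  continuousOn_invFun := by
    rw [Topology.IsInducing.subtypeVal.continuousOn_iff]
    refine p.sP.continuousOn.congr fun u hu => ?_
    simp only [Function.comp, hu, dif_pos]

theorem Patch.chart_symm (p : Patch D S) (x₀ : S) {u : D} (hu : u ∈ p.U) :
    ((p.chart x₀).symm u : V) = p.P u := by
  simp only [Patch.chart, OpenPartialHomeomorph.coe_mk_symm, PartialEquiv.coe_symm_mk, hu, dif_pos]

noncomputable def Atl.pt (h : Atl D S) (x : S) : Patch D S := (h x x.2).choose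

theorem Atl.mem_pt (h : Atl D S) (x : S) : (x : V) ∈ (h.pt x).O := (h x x.2).choose_spec

/-- The charted space structure on the subtype. -/
@[reducible] noncomputable def Atl.cs (h : Atl D S) : ChartedSpace D S where
  atlas := range fun x : S => (h.pt x).chart x
  chartAt x := (h.pt x).chart x
  mem_chart_source x := h.mem_pt x
  chart_mem_atlas x := ⟨x, rfl⟩

/-- The differential of the inclusion. -/
noncomputable def Atl.J (h : Atl D S) (x : S) : D →L[ℝ] V :=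
  fderiv ℝ (h.pt x).P ((h.pt x).L x)

def w2 (g h : V → ℝ) (u v : V) : ℝ := g u * h v - g v * h u

def w3 (f g h : V → ℝ) (u v w : V) : ℝ :=
  f u * w2 g h v w + f v * w2 g h w u + f w * w2 g h u v

abbrev Tr (V : Type) := (V → ℝ) × (V → ℝ) × (V → ℝ)

/-- The two-form `∑ f dg ∧ dh`. -/
noncomputable def frm (l : List (Tr V)) (x u v : V) : ℝ :=
  (l.map fun τ => τ.1 x * w2 (fderiv ℝ τ.2.1 x) (fderiv ℝ τ.2.2 x) u v).sum

/-- Its exterior derivative `∑ df ∧ dg ∧ dh`. -/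
noncomputable def dfrm (l : List (Tr V)) (x u v w : V) : ℝ :=
  (l.map fun τ => w3 (fderiv ℝ τ.1 x) (fderiv ℝ τ.2.1 x) (fderiv ℝ τ.2.2 x) u v w).sum

def SmL (l : List (Tr V)) : Prop :=
  ∀ τ ∈ l, ContDiff ℝ ∞ τ.1 ∧ ContDiff ℝ ∞ τ.2.1 ∧ ContDiff ℝ ∞ τ.2.2

def SympData (S : Set V) (l : List (Tr V)) : Prop :=
  SmL l ∧ (∀ x ∈ S, ∀ u ∈ Tan S x, ∀ v ∈ Tan S x, ∀ w ∈ Tan S x, dfrm l x u v w = 0) ∧
  ∀ x ∈ S, ∀ v ∈ Tan S x, (∀ w ∈ Tan S x, frm l x v w = 0) → v = 0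

/-- `φ` is the flow on `S` of the time-dependent Hamiltonian `H`. -/
def FlowAmb (S : Set V) (l : List (Tr V)) (H : ℝ → V → ℝ) (φ : ℝ → V → V) : Prop :=
  (∀ t, ∀ x ∈ S, ContDiffAt ℝ ∞ (fun q : ℝ × V => H q.1 q.2) (t, x)) ∧
  (∀ t, ∀ x ∈ S, H (t + 1) x = H t x) ∧
  ∀ x ∈ S, φ 0 x = x ∧ ∀ t, φ t x ∈ S ∧ ∃ v, HasDerivAt (fun s => φ s x) v t ∧
    ∀ w ∈ Tan S (φ t x), frm l (φ t x) v w = fderiv ℝ (H t) (φ t x) w

def NondegAmb (S : Set V) (f : V → V) : Prop :=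
  ∀ x ∈ S, f x = x → ∃ A : V →L[ℝ] V, HasFDerivWithinAt f A S x ∧ ∀ v ∈ Tan S x, A v = v → v = 0

def HamAmb (S : Set V) (l : List (Tr V)) (N : ℕ) : Prop :=
  ∃ (H : ℝ → V → ℝ) (φ : ℝ → V → V), FlowAmb S l H φ ∧ NondegAmb S (φ 1) ∧
    {x | x ∈ S ∧ φ 1 x = x}.encard ≤ N

/-- `ξ` has local `C¹` extensions. -/
def LocC1 (S : Set V) (ξ : V → V) : Prop :=
  ∀ x ∈ S, ∃ ζ : V → V, ContDiffAt ℝ 1 ζ x ∧ ∀ᶠ y in 𝓝[S] x, ξ y = ζ y

/-- `ξ` is the Hamiltonian vector field of `G` on `S`. -/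
def IsHVF (S : Set V) (l : List (Tr V)) (G : V → ℝ) (ξ : V → V) : Prop :=
  ∀ x ∈ S, ξ x ∈ Tan S x ∧ ∀ w ∈ Tan S x, frm l x (ξ x) w = fderiv ℝ G x w

/-- `ψ` is the flow of `ξ` on `S`. -/
def IsFlow (S : Set V) (ξ : V → V) (ψ : ℝ → V → V) : Prop :=
  ∀ x ∈ S, ψ 0 x = x ∧ ∀ t, ψ t x ∈ S ∧ HasDerivAt (fun s => ψ s x) (ξ (ψ t x)) t

/-- A linear Hamiltonian circle action of period `2` with Hamiltonian `K`. -/
def RotData (S : Set V) (l : List (Tr V)) (ρ : ℝ → V →L[ℝ] V) (K : V → ℝ) : Prop :=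
  (∀ x, ρ 0 x = x) ∧ (∀ s t x, ρ (s + t) x = ρ s (ρ t x)) ∧ (∀ x, ρ 2 x = x) ∧
  ContDiff ℝ ∞ (fun q : ℝ × V => ρ q.1 q.2) ∧ ContDiff ℝ ∞ K ∧ (∀ t, MapsTo (ρ t) S S) ∧
  (∀ t, ∀ x ∈ S, ∀ u ∈ Tan S x, ∀ v ∈ Tan S x, frm l (ρ t x) (ρ t u) (ρ t v) = frm l x u v) ∧
  ∀ x ∈ S, ∀ v, HasDerivAt (fun t => ρ t x) v 0 → ∀ w ∈ Tan S x, frm l x v w = fderiv ℝ K x w

/-- Nondegeneracy of a critical point of `G` along the fixed directions of `g`. -/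
def ND (S : Set V) (g : V → V) (G : V → ℝ) (x : V) : Prop :=
  ∀ v ∈ Tan S x, g v = v → v ≠ 0 → ∃ (γ w : ℝ → V) (c : ℝ), γ 0 = x ∧ HasDerivAt γ v 0 ∧
    (∀ᶠ t in 𝓝 (0 : ℝ), γ t ∈ S ∧ w t ∈ Tan S (γ t) ∧ ‖w t‖ ≤ c) ∧
    ¬ (fun t => fderiv ℝ G (γ t) (w t)) =o[𝓝 0] (fun t : ℝ => t)

/-- Critical points of `G` on `S` fixed by `g`. -/
def CritFix (S : Set V) (g : V → V) (G : V → ℝ) : Set V :=
  {x | x ∈ S ∧ g x = x ∧ ∀ w ∈ Tan S x, fderiv ℝ G x w = 0}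

end

/-- Lift of a list of triples along a projection. -/
def liftL {V V' : Type} (r : V' → V) (l : List (Tr V)) : List (Tr V') :=
  l.map fun τ => (τ.1 ∘ r, τ.2.1 ∘ r, τ.2.2 ∘ r)

/-! ### Statements (generic geometry) -/

def StmtTan : Prop := ∀ (V D : Type) [NormedAddCommGroup V] [NormedSpace ℝ V]
  [NormedAddCommGroup D] [NormedSpace ℝ D] (S : Set V),
  (∀ (p : Patch D S), ∀ x ∈ S ∩ p.O, Tan S x = range (fderiv ℝ p.P (p.L x)) ∧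
    (∀ u, fderiv ℝ p.L x (fderiv ℝ p.P (p.L x) u) = u) ∧
    ∀ v ∈ Tan S x, fderiv ℝ p.P (p.L x) (fderiv ℝ p.L x v) = v) ∧
  (∀ (γ : ℝ → V) (v : V) (t : ℝ), HasDerivAt γ v t → (∀ᶠ s in 𝓝 t, γ s ∈ S) →
    v ∈ Tan S (γ t)) ∧
  (∀ (F : Type) [NormedAddCommGroup F] [NormedSpace ℝ F] (f g : V → F) (A B : V →L[ℝ] F) (x : V),
    HasFDerivWithinAt f A S x → HasFDerivWithinAt g B S x → x ∈ S → (∀ᶠ y in 𝓝[S] x, f y = g y) →
    ∀ v ∈ Tan S x, A v = B v) ∧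
  (∀ (V' : Type) [NormedAddCommGroup V'] [NormedSpace ℝ V'] (S' : Set V') (f : V → V')
    (A : V →L[ℝ] V') (x : V), HasFDerivWithinAt f A S x → x ∈ S → MapsTo f S S' →
    ∀ v ∈ Tan S x, A v ∈ Tan S' (f x)) ∧
  (∀ (D' : Type) [NormedAddCommGroup D'] [NormedSpace ℝ D'], (D ≃L[ℝ] D') → Atl D S → Atl D' S) ∧
  ∀ (V' D' : Type) [NormedAddCommGroup V'] [NormedSpace ℝ V'] [NormedAddCommGroup D']
    [NormedSpace ℝ D'] (S' : Set V'), (Atl D S → Atl D' S' → Atl (D × D') (S ×ˢ S')) ∧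
    ∀ x y, Tan (S ×ˢ S') (x, y) = Tan S x ×ˢ Tan S' y

/-- Regular level sets. -/
def StmtLev : Prop := ∀ (V D R : Type) [NormedAddCommGroup V] [NormedSpace ℝ V]
  [FiniteDimensional ℝ V] [NormedAddCommGroup D] [NormedSpace ℝ D] [FiniteDimensional ℝ D]
  [NormedAddCommGroup R] [NormedSpace ℝ R] [FiniteDimensional ℝ R] (g : V → R) (S : Set V)
  (x₀ : V), S = {x | g x = 0} → x₀ ∈ S → ContDiff ℝ ∞ g →
  Function.Surjective (fderiv ℝ g x₀) →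
  Module.finrank ℝ V = Module.finrank ℝ D + Module.finrank ℝ R →
  (∃ p : Patch D S, x₀ ∈ p.O) ∧ Tan S x₀ = {u | fderiv ℝ g x₀ u = 0}

/-- Products of symplectic data and of rotations. -/
def StmtProd : Prop := ∀ (V V' : Type) [NormedAddCommGroup V] [NormedSpace ℝ V]
  [NormedAddCommGroup V'] [NormedSpace ℝ V'] (S : Set V) (S' : Set V') (l : List (Tr V))
  (l' : List (Tr V')), SympData S l → SympData S' l' →
  SympData (S ×ˢ S') (liftL Prod.fst l ++ liftL Prod.snd l') ∧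
  ∀ (ρ : ℝ → V' →L[ℝ] V') (K : V' → ℝ), RotData S' l' ρ K →
    RotData (S ×ˢ S') (liftL Prod.fst l ++ liftL Prod.snd l')
      (fun t => (ContinuousLinearMap.id ℝ V).prodMap (ρ t)) (K ∘ Prod.snd)

/-- The manifold structure and the dictionary. -/
def StmtBr1 : Prop := ∀ (n : ℕ) (V : Type) [NormedAddCommGroup V] [NormedSpace ℝ V] (S : Set V)
  (h : Atl (Eu n) S), letI := h.cs
  IsManifold 𝓘(ℝ, Eu n) ∞ S ∧ ContMDiff 𝓘(ℝ, Eu n) 𝓘(ℝ, V) ∞ (Subtype.val : S → V) ∧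
  (∀ x : S, HasMFDerivAt 𝓘(ℝ, Eu n) 𝓘(ℝ, V) (Subtype.val : S → V) x (h.J x)) ∧
  (∀ x : S, range (h.J x) = Tan S x ∧ Function.Injective (h.J x)) ∧
  (∀ (γ : ℝ → S) (v : V) (t : ℝ), HasDerivAt (fun s => (γ s : V)) v t →
    MDifferentiableAt 𝓘(ℝ, ℝ) 𝓘(ℝ, Eu n) γ t ∧
    h.J (γ t) (mfderiv 𝓘(ℝ, ℝ) 𝓘(ℝ, Eu n) γ t (1 : ℝ)) = v) ∧
  (∀ x : S, ∀ u ∈ (h.pt x).U, ∀ v : Eu n,
    h.J ((chartAt (Eu n) x).symm u) (mfderiv 𝓘(ℝ, Eu n) 𝓘(ℝ, Eu n) (chartAt (Eu n) x).symm u v) =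
      fderiv ℝ (h.pt x).P u v) ∧
  ∀ (f : S → S) (f' : V → V) (A : V →L[ℝ] V) (x : S), (∀ y : S, (f y : V) = f' y) → f x = x →
    HasFDerivWithinAt f' A S x → MDifferentiableAt 𝓘(ℝ, Eu n) 𝓘(ℝ, Eu n) f x ∧
      ∀ v : Eu n, h.J x (mfderiv 𝓘(ℝ, Eu n) 𝓘(ℝ, Eu n) f x v) = A (h.J x v)

def StmtBr2 : Prop := ∀ (n : ℕ) (V : Type) [NormedAddCommGroup V] [NormedSpace ℝ V] (S : Set V)
  (h : Atl (Eu n) S) (l : List (Tr V)), SympData S l → letI := h.cs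
  ∃ Ω : S → Eu n →L[ℝ] Eu n →L[ℝ] ℝ, (∀ x v w, Ω x v w = frm l x (h.J x v) (h.J x w)) ∧
    IsSymplectic Ω

def StmtBr3 : Prop := ∀ (n N : ℕ) (V : Type) [NormedAddCommGroup V] [NormedSpace ℝ V] (S : Set V)
  (h : Atl (Eu n) S) (l : List (Tr V)), SympData S l → HamAmb S l N → letI := h.cs
  ∃ (Ω : S → Eu n →L[ℝ] Eu n →L[ℝ] ℝ) (H : ℝ → S → ℝ) (φ : ℝ → S → S), IsSymplectic Ω ∧
    IsHamFlow Ω H φ ∧ NondegFix n (φ 1) ∧ {x | φ 1 x = x}.encard ≤ N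

/-- Existence of Hamiltonian vector fields. -/
def StmtVF : Prop := ∀ (V D : Type) [NormedAddCommGroup V] [NormedSpace ℝ V]
  [NormedAddCommGroup D] [NormedSpace ℝ D] [FiniteDimensional ℝ D] (S : Set V) (l : List (Tr V))
  (G : V → ℝ), Atl D S → SympData S l → (∀ x ∈ S, ContDiffAt ℝ ∞ G x) →
  ∃ ξ : V → V, IsHVF S l G ξ ∧ LocC1 S ξ

/-- Global solutions for a globally Lipschitz field, and short periodic orbits. -/
def StmtFlowA : Prop := ∀ (V : Type) [NormedAddCommGroup V] [NormedSpace ℝ V] [CompleteSpace V]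
  (ξ : V → V) (L : NNReal),
  (LipschitzWith L ξ → ∃ ψ : ℝ → V → V, IsFlow univ ξ ψ) ∧
  ∀ (S : Set V) (γ : ℝ → V) (T : ℝ), LipschitzOnWith L ξ S → (∀ t, γ t ∈ S) →
    (∀ t, HasDerivAt γ (ξ (γ t)) t) → 0 < T → L * T < 1 → γ T = γ 0 → ξ (γ 0) = 0

/-- The flow on a compact submanifold. -/
def StmtFlow : Prop := ∀ (V D : Type) [NormedAddCommGroup V] [NormedSpace ℝ V]
  [FiniteDimensional ℝ V] [NormedAddCommGroup D] [NormedSpace ℝ D] [FiniteDimensional ℝ D]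
  (S : Set V) (ξ : V → V), IsCompact S → Atl D S → (∀ x ∈ S, ξ x ∈ Tan S x) → LocC1 S ξ →
  (∃ L, LipschitzOnWith L ξ S) ∧ ∃ ψ, IsFlow S ξ ψ

/-- Differentiability of the flow at an equilibrium. -/
def StmtLin : Prop := ∀ (V : Type) [NormedAddCommGroup V] [NormedSpace ℝ V] [CompleteSpace V]
  (S : Set V) (ξ : V → V) (ψ : ℝ → V → V) (L : NNReal) (p : V) (B : V →L[ℝ] V),
  LipschitzOnWith L ξ S → IsFlow S ξ ψ → p ∈ S → ξ p = 0 → HasFDerivWithinAt ξ B S p →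
  ∃ Φ : ℝ → V →L[ℝ] V, (∀ v, Φ 0 v = v) ∧ (∀ v t, HasDerivAt (fun s => Φ s v) (B (Φ t v)) t) ∧
    (∀ t, ψ t p = p) ∧ ∀ T, 0 ≤ T → HasFDerivWithinAt (ψ T) (Φ T) S p

/-- The composed flow is Hamiltonian. -/
def StmtHamA : Prop := ∀ (V : Type) [NormedAddCommGroup V] [NormedSpace ℝ V] (S : Set V)
  (l : List (Tr V)) (ρ : ℝ → V →L[ℝ] V) (K G : V → ℝ) (ξ : V → V) (ψ : ℝ → V → V) (L : NNReal),
  SympData S l → (∀ x ∈ S, ∀ u ∈ Tan S x, ∀ v ∈ Tan S x, u - v ∈ Tan S x) → RotData S l ρ K →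
  (∀ x ∈ S, ContDiffAt ℝ ∞ G x) → (∀ x ∈ S, G (ρ 1 x) = G x) → IsHVF S l G ξ →
  LipschitzOnWith L ξ S → IsFlow S ξ ψ →
  (∀ t, ∀ x ∈ S, ψ t (ρ 1 x) = ρ 1 (ψ t x)) ∧ (∀ s t, ∀ x ∈ S, ψ (s + t) x = ψ s (ψ t x)) ∧
  ∀ ε : ℝ, FlowAmb S l (fun t x => K x + ε * G (ρ (-t) x)) (fun t x => ρ t (ψ (ε * t) x))

/-- Fixed points of the time one map. -/
def StmtHamB : Prop := ∀ (V : Type) [NormedAddCommGroup V] [NormedSpace ℝ V]
  [FiniteDimensional ℝ V] (S : Set V)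
  (l : List (Tr V)) (g : V →L[ℝ] V) (G : V → ℝ) (ξ : V → V) (ψ : ℝ → V → V) (L : NNReal),
  SympData S l → (∀ x, g (g x) = x) → MapsTo g S S → IsHVF S l G ξ → LocC1 S ξ →
  LipschitzOnWith L ξ S → IsFlow S ξ ψ →
  (∀ t, ∀ x ∈ S, ψ t (g x) = g (ψ t x)) → (∀ s t, ∀ x ∈ S, ψ (s + t) x = ψ s (ψ t x)) →
  (CritFix S g G).Finite → (∀ x ∈ CritFix S g G, ND S g G x) →
  ∃ ε : ℝ, 0 < ε ∧ {x | x ∈ S ∧ g (ψ ε x) = x} ⊆ CritFix S g G ∧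
    NondegAmb S (fun x => g (ψ ε x))

def StmtHam : Prop := ∀ (V D : Type) [NormedAddCommGroup V] [NormedSpace ℝ V]
  [FiniteDimensional ℝ V] [NormedAddCommGroup D] [NormedSpace ℝ D] [FiniteDimensional ℝ D]
  (S : Set V) (l : List (Tr V)) (ρ : ℝ → V →L[ℝ] V) (K G : V → ℝ) (N : ℕ), IsCompact S →
  Atl D S → SympData S l → RotData S l ρ K → (∀ x ∈ S, ContDiffAt ℝ ∞ G x) →
  (∀ x ∈ S, G (ρ 1 x) = G x) → (CritFix S (ρ 1) G).encard ≤ N →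
  (∀ x ∈ CritFix S (ρ 1) G, ND S (ρ 1) G x) → HamAmb S l N

end Vale.Agent.P265
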