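import Vale.Agent.P265.Coh

/-! Morse theory on a cyclic covering: definitions and statements of wave B. -/

namespace Vale.Agent.P265

open Set Topology
open scoped Manifold ContDiff

section
variable {E W : Type} [MetricSpace E] [TopologicalSpace W]

/-- `U` is evenly covered, with local section `s`. -/
def CovLoc (π : E → W) (ι : E → E) (m : ℕ) (U : Set W) (s : W → E) : Prop :=
  IsOpen U ∧ ContinuousOn s U ∧ (∀ u ∈ U, π (s u) = u) ∧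
    (∀ e, π e ∈ U → ∃ j < m, e = ι^[j] (s (π e))) ∧
    (∀ j < m, ∀ j' < m, ∀ u ∈ U, ∀ u' ∈ U, ι^[j] (s u) = ι^[j'] (s u') → j = j') ∧
    IsOpen (s '' U)

/-- An `m`-sheeted cyclic covering with deck generator `ι`. -/
def Cov (π : E → W) (ι : E → E) (m : ℕ) : Prop :=
  Continuous π ∧ Continuous ι ∧ (∀ e, π (ι e) = π e) ∧ (∀ e, ι^[m] e = e) ∧ 0 < m ∧ m ∣ 6 ∧
  ∀ w, ∃ (U : Set W) (s : W → E), w ∈ U ∧ CovLoc π ι m U s

/-- `F` can be pushed down near `e` inside `K`. -/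
def Push (F : E → ℝ) (K : Set E) (e : E) : Prop :=
  ∀ N ∈ 𝓝 e, ∃ h : ℝ → E → E, ContinuousOn (fun q : ℝ × E => h q.1 q.2) (Icc 0 1 ×ˢ K) ∧
    (∀ x ∈ K, h 0 x = x) ∧
    (∀ t ∈ Icc (0 : ℝ) 1, ∀ x ∈ K,
      h t x ∈ K ∧ (h t x = x ∨ (x ∈ N ∧ h t x ∈ N ∧ F (h t x) < F x))) ∧
    F (h 1 e) < F e

/-- Sublevel set upstairs. -/
def Sub (π : E → W) (K : Set E) (f : W → ℝ) (a : ℝ) : Set E := K ∩ {e | f (π e) ≤ a}

/-- The standard quadratic form. -/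
noncomputable def qf {l μ : ℕ} (u : Eu l × Eu μ) : ℝ := -‖u.1‖ ^ 2 + ‖u.2‖ ^ 2

variable {D : Type} [NormedAddCommGroup D] [NormedSpace ℝ D]

/-- Morse data on the levels `[a, b]`: the points over `C` are the only ones that are not known
to be pushable; the points of `C'` are nondegenerate critical points of index `ind`. -/
structure MD (π : E → W) (c : W → OpenPartialHomeomorph W D) (K : Set E) (f : W → ℝ) (a b : ℝ)
    (C C' : Finset W) (ind : W → ℕ) : Prop where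
  cont : Continuous f
  lt : a < b
  push : ∀ e ∈ K, a ≤ f (π e) → f (π e) ≤ b → π e ∉ C → Push (f ∘ π) K e
  val : ∀ w ∈ C, a < f w ∧ f w < b
  int : ∀ w ∈ C, ∀ e, π e = w → e ∈ interior K
  crit : ∀ w ∈ C', w ∈ (c w).source ∧ ∃ O : Set D, IsOpen O ∧ c w w ∈ O ∧ O ⊆ (c w).target ∧
    ContDiffOn ℝ 2 (f ∘ (c w).symm) O ∧ fderiv ℝ (f ∘ (c w).symm) (c w w) = 0 ∧
    ∃ (μ : ℕ) (T : D ≃L[ℝ] Eu (ind w) × Eu μ), ∀ u,
      fderiv ℝ (fderiv ℝ (f ∘ (c w).symm)) (c w w) u u = 2 * qf (T u)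

/-- `f` is exactly quadratic of index `l` near `p`. -/
def QuadAt (f : W → ℝ) (p : W) (l : ℕ) : Prop :=
  ∃ (μ : ℕ) (c : OpenPartialHomeomorph W (Eu l × Eu μ)) (R : ℝ), 0 < R ∧ p ∈ c.source ∧ c p = 0 ∧
    Metric.closedBall 0 R ⊆ c.target ∧ ∀ u ∈ Metric.closedBall 0 R, f (c.symm u) = f p + qf u

/-- `f'` is obtained from `f` by Milnor's modification at `p`. -/
def Bump (π : E → W) (ι : E → E) (m : ℕ) (K : Set E) (f f' : W → ℝ) (p : W) (l : ℕ) (η : ℝ) :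
    Prop :=
  ∃ (μ : ℕ) (c : OpenPartialHomeomorph W (Eu l × Eu μ)) (R : ℝ) (g : ℝ → ℝ) (U : Set W)
    (s : W → E), 0 < R ∧ 0 < η ∧ 8 * η ≤ R ^ 2 ∧ p ∈ c.source ∧ c p = 0 ∧
    Metric.closedBall 0 R ⊆ c.target ∧ Continuous g ∧ Antitone g ∧ (Monotone fun t => t + g t) ∧
    η < g 0 ∧ (∀ t, 2 * η ≤ t → g t = 0) ∧
    (∀ u ∈ Metric.closedBall 0 R, f (c.symm u) = f p + qf u ∧
      f' (c.symm u) = f p + qf u - g (‖u.1‖ ^ 2 + 2 * ‖u.2‖ ^ 2)) ∧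
    (∀ w, w ∉ c.symm '' Metric.closedBall 0 R → f' w = f w) ∧
    π ⁻¹' (c.symm '' Metric.closedBall 0 R) ⊆ K ∧
    CovLoc π ι m U s ∧ c.symm '' Metric.closedBall 0 R ⊆ U

end

/-- The box used to truncate `ℝ^k`. -/
def box {k l μ : ℕ} (T : Eu k ≃L[ℝ] Eu l × Eu μ) (ρ' ρ : ℝ) : Set (Eu k) :=
  {z | ‖(T z).1‖ ≤ ρ' ∧ ‖(T z).2‖ ≤ ρ}

/-- Product charts of `M × ℝ^k`. -/
noncomputable def prodChart (n k : ℕ) (M : Type) [TopologicalSpace M] [ChartedSpace (Eu n) M]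
    (p : M × Eu k) : OpenPartialHomeomorph (M × Eu k) (Eu n × Eu k) :=
  (chartAt (Eu n) p.1).prod (OpenPartialHomeomorph.refl (Eu k))

/-- No obstruction between two levels. -/
def StmtLevel : Prop := ∀ (E : Type) [MetricSpace E] (ι : E → E) (ε : K7) (K : Set E) (F : E → ℝ)
  (a b : ℝ), ε ≠ 0 → Good ι K → ContinuousOn F K → (∀ x ∈ K, F (ι x) = F x) → a ≤ b →
  (∀ e ∈ K, a ≤ F e → F e ≤ b → Push F K e) →
  HasDim ι ε (K ∩ {e | F e ≤ b}) (K ∩ {e | F e ≤ a}) 0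

/-- Regular points are pushable. -/
def StmtPushC : Prop := ∀ (E W D : Type) [MetricSpace E] [TopologicalSpace W]
  [NormedAddCommGroup D] [NormedSpace ℝ D] [FiniteDimensional ℝ D] (π : E → W) (ι : E → E) (m : ℕ)
  (c : OpenPartialHomeomorph W D) (K : Set E) (f : W → ℝ) (e : E), Cov π ι m →
  e ∈ interior K → π e ∈ c.source → ContDiffAt ℝ 1 (f ∘ c.symm) (c (π e)) →
  fderiv ℝ (f ∘ c.symm) (c (π e)) ≠ 0 → Push (f ∘ π) K e

/-- Replacing a function by its second order Taylor polynomial near a nondegenerate critical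
point. -/
def StmtQuad : Prop := ∀ (D : Type) [NormedAddCommGroup D] [NormedSpace ℝ D] (l μ : ℕ)
  (T : D ≃L[ℝ] Eu l × Eu μ) (f : D → ℝ) (u₀ : D) (O : Set D), IsOpen O → u₀ ∈ O →
  ContDiffOn ℝ 2 f O → fderiv ℝ f u₀ = 0 →
  (∀ u, fderiv ℝ (fderiv ℝ f) u₀ u u = 2 * qf (T u)) →
  ∃ ρ₀ > 0, Metric.closedBall u₀ ρ₀ ⊆ O ∧ ∀ ρ, 0 < ρ → ρ ≤ ρ₀ → ∃ (f' : D → ℝ) (r : ℝ),
    0 < r ∧ r ≤ ρ ∧ ContDiffOn ℝ 1 f' O ∧ (∀ u, ρ ≤ ‖u - u₀‖ → f' u = f u) ∧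
    (∀ u, ‖u - u₀‖ ≤ r → f' u = f u₀ + qf (T (u - u₀))) ∧
    (∀ u, ‖u - u₀‖ ≤ ρ₀ → u ≠ u₀ → fderiv ℝ f' u ≠ 0) ∧
    ∀ u, ‖u - u₀‖ ≤ ρ → |f' u - f u₀| ≤ ρ ∧ |f u - f u₀| ≤ ρ

/-- Diagonalisation of nondegenerate forms. -/
def StmtDiag : Prop :=
  (∀ (D : Type) [NormedAddCommGroup D] [NormedSpace ℝ D] [FiniteDimensional ℝ D]
    (B : D →L[ℝ] D →L[ℝ] ℝ), (∀ u v, B u v = B v u) → (∀ v, B v = 0 → v = 0) →
    ∃ (l μ : ℕ) (T : D ≃L[ℝ] Eu l × Eu μ), ∀ u, B u u = 2 * qf (T u)) ∧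
  ∀ (k : ℕ) (Q : QuadraticForm ℝ (Eu k)), Q.Nondegenerate →
    ∃ (l μ : ℕ) (T : Eu k ≃L[ℝ] Eu l × Eu μ), ∀ z, Q z = qf (T z)

def StmtStep1 : Prop := ∀ (E W D : Type) [MetricSpace E] [TopologicalSpace W] [T2Space W]
  [NormedAddCommGroup D] [NormedSpace ℝ D] [FiniteDimensional ℝ D] [DecidableEq W]
  (π : E → W) (ι : E → E) (m : ℕ)
  (c : W → OpenPartialHomeomorph W D) (K : Set E) (f : W → ℝ) (a b : ℝ) (C : Finset W)
  (ind : W → ℕ) (p : W), Cov π ι m → MD π c K f a b C C ind → p ∈ C →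
  ∃ f' : W → ℝ, MD π c K f' a b C (C.erase p) ind ∧ Sub π K f' a = Sub π K f a ∧
    Sub π K f' b = Sub π K f b ∧ (∀ w ∈ C, f' w = f w) ∧ QuadAt f' p (ind p)

def StmtStep2 : Prop := ∀ (E W D : Type) [MetricSpace E] [TopologicalSpace W] [T2Space W]
  [NormedAddCommGroup D] [NormedSpace ℝ D] [FiniteDimensional ℝ D] [DecidableEq W]
  (π : E → W) (ι : E → E) (m : ℕ)
  (c : W → OpenPartialHomeomorph W D) (K : Set E) (f : W → ℝ) (a b : ℝ) (C : Finset W)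
  (ind : W → ℕ) (p : W), Cov π ι m → IsCompact K → MD π c K f a b C (C.erase p) ind → p ∈ C →
  (∀ w ∈ C, f p ≤ f w) → QuadAt f p (ind p) →
  ∃ (f' : W → ℝ) (η : ℝ), a < f p - η ∧
    MD π c K f' (f p - η) b (C.erase p) (C.erase p) ind ∧ Sub π K f' b = Sub π K f b ∧
    Bump π ι m K f f' p (ind p) η

def StmtStep3 : Prop := ∀ (E W : Type) [MetricSpace E] [TopologicalSpace W] [T2Space W]
  (π : E → W) (ι : E → E) (m : ℕ) (ε : K7) (K : Set E) (f f' : W → ℝ) (p : W) (l : ℕ) (η : ℝ),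
  Cov π ι m → Good ι K → ε ≠ 0 → ε ^ m = 1 → Continuous f → Continuous f' →
  Bump π ι m K f f' p l η →
  HasDim ι ε (Sub π K f' (f p - η)) (Sub π K f (f p - η)) (dl (l + 1))

/-- The Morse inequalities. -/
def StmtMorse : Prop := ∀ (E W D : Type) [MetricSpace E] [TopologicalSpace W] [T2Space W]
  [NormedAddCommGroup D] [NormedSpace ℝ D] [FiniteDimensional ℝ D]
  (π : E → W) (ι : E → E) (m : ℕ) (ε : K7)
  (c : W → OpenPartialHomeomorph W D) (K : Set E) (f : W → ℝ) (a b : ℝ) (C : Finset W)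
  (ind : W → ℕ), Cov π ι m → Good ι K → ε ≠ 0 → ε ^ m = 1 → MD π c K f a b C C ind →
  ∃ bb q : ℕ → ℕ, HasDim ι ε (Sub π K f b) (Sub π K f a) bb ∧
    ∀ n, (C.filter fun w => ind w + 1 = n).card = bb n + q n + sh q n

/-- Pushing by shrinking the positive coordinates, in the region where the function is the
quadratic form. -/
def StmtFace : Prop := ∀ (E : Type) [MetricSpace E] (k l μ : ℕ) (T : Eu k ≃L[ℝ] Eu l × Eu μ)
  (ρ' ρ : ℝ) (G : E × Eu k → ℝ) (e : E × Eu k), (∀ᶠ y in 𝓝 e, G y = qf (T y.2)) →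
  (T e.2).2 ≠ 0 → e.2 ∈ box T ρ' ρ → Push G (univ ×ˢ box T ρ' ρ) e

/-- Morse data of a stable Morse function. -/
def StmtStabA : Prop := ∀ (n k : ℕ) (M E : Type) [TopologicalSpace M] [ChartedSpace (Eu n) M]
  [IsManifold 𝓘(ℝ, Eu n) ∞ M] [T2Space M] [CompactSpace M] [MetricSpace E] [CompactSpace E]
  (π : E → M) (ι : E → E) (F : M × Eu k → ℝ) (C : Finset (M × Eu k)), Cov π ι 6 →
  IsStableMorse n F → (C : Set (M × Eu k)) = critSet n F →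
  Cov (Prod.map π id : E × Eu k → M × Eu k) (Prod.map ι id) 6 ∧
  ∃ (l μ : ℕ) (T : Eu k ≃L[ℝ] Eu l × Eu μ) (ρ' ρ a b : ℝ) (ind : M × Eu k → ℕ),
    0 < ρ ∧ 0 < ρ' ∧ a < 0 ∧ -a < ρ' ^ 2 ∧
    MD (Prod.map π id) (prodChart n k M) (univ ×ˢ box T ρ' ρ) F a b C C ind ∧
    Sub (Prod.map π id) (univ ×ˢ box T ρ' ρ) F b = univ ×ˢ box T ρ' ρ ∧
    Sub (Prod.map π id) (univ ×ˢ box T ρ' ρ) F a = univ ×ˢ (box T ρ' ρ ∩ {z | qf (T z) ≤ a})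

/-- The top/bottom pair is an iterated suspension. -/
def StmtStabB : Prop := ∀ (E : Type) [MetricSpace E] (ι : E → E) (ε : K7) (k l μ : ℕ)
  (T : Eu k ≃L[ℝ] Eu l × Eu μ) (ρ' ρ a : ℝ) (z : ℕ → ℕ), ε ≠ 0 → Good ι (univ : Set E) →
  0 < ρ → 0 < ρ' → a < 0 → -a < ρ' ^ 2 → HasDim ι ε univ ∅ z →
  Good (Prod.map ι id) (univ ×ˢ box T ρ' ρ) ∧
  HasDim (Prod.map ι id) ε (univ ×ˢ box T ρ' ρ) (univ ×ˢ (box T ρ' ρ ∩ {z | qf (T z) ≤ a}))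
    (sh^[l] z)

/-- The lower bound for the stable Morse number. -/
def StmtLower : Prop := ∀ (n : ℕ) (M E : Type) [TopologicalSpace M] [ChartedSpace (Eu n) M]
  [IsManifold 𝓘(ℝ, Eu n) ∞ M] [T2Space M] [CompactSpace M] [MetricSpace E] [CompactSpace E]
  (π : E → M) (ι : E → E), Cov π ι 6 → HasDim ι 1 univ ∅ zP → HasDim ι 3 univ ∅ zM →
  88 ≤ stableMorse n M

end Vale.Agent.P265
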