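import Mathlib

/-! Definitions used in the statement for P265 (for a general model space `E`). -/

namespace Vale.Agent.P265.G

open scoped Manifold ContDiff

section
variable {V : Type} [NormedAddCommGroup V] [NormedSpace ℝ V]

/-- `u` is a critical point of `f`. -/
def IsCrit (f : V → ℝ) (u : V) : Prop := fderiv ℝ f u = 0

/-- The Hessian of `f` at `u` is nondegenerate. -/
def HessNondeg (f : V → ℝ) (u : V) : Prop := ∀ v : V, fderiv ℝ (fderiv ℝ f) u v = 0 → v = 0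

/-- Continuous bilinear forms on `V`. -/
abbrev Bil (V : Type) [NormedAddCommGroup V] [NormedSpace ℝ V] : Type := V →L[ℝ] V →L[ℝ] ℝ

end

section
variable (E : Type) [NormedAddCommGroup E] [NormedSpace ℝ E]
  {Z : Type} [NormedAddCommGroup Z] [NormedSpace ℝ Z]
  {M : Type} [TopologicalSpace M] [ChartedSpace E M]

/-- A function on `M × Z` written in the preferred chart at the point `p`. -/
noncomputable def locFun (F : M × Z → ℝ) (p : M × Z) (u : E × Z) : ℝ :=
  F ((chartAt E p.1).symm u.1, u.2)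

/-- The coordinates of `p` in the preferred chart at `p`. -/
noncomputable def locPt (p : M × Z) : E × Z := (chartAt E p.1 p.1, p.2)

/-- The critical points of `F`. -/
def critSet (F : M × Z → ℝ) : Set (M × Z) := {p | IsCrit (locFun E F p) (locPt E p)}

/-- `F` is a smooth function on `M × Z` with nondegenerate Hessian at each critical point, equal
to a nondegenerate quadratic form `Q z` for `‖z‖ ≥ R`. -/
def IsStableMorse (F : M × Z → ℝ) : Prop :=
  ContMDiff (𝓘(ℝ, E).prod 𝓘(ℝ, Z)) 𝓘(ℝ, ℝ) ∞ F ∧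
  (∀ p ∈ critSet E F, HessNondeg (locFun E F p) (locPt E p)) ∧
  ∃ (Q : QuadraticForm ℝ Z) (R : ℝ), Q.Nondegenerate ∧ 0 < R ∧
    ∀ (x : M) (z : Z), R ≤ ‖z‖ → F (x, z) = Q z

/-- The stable Morse number. -/
noncomputable def stableMorse (M : Type) [TopologicalSpace M] [ChartedSpace E M] : ℕ∞ :=
  sInf {c : ℕ∞ | ∃ (k : ℕ) (F : M × EuclideanSpace ℝ (Fin k) → ℝ),
    IsStableMorse E F ∧ c = (critSet E F).encard}

variable {E}

/-- A two-form `Ω` written in the preferred chart at `x`, evaluated on the constant vector fields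
`v`, `w`. -/
noncomputable def locForm (Ω : M → Bil E) (x : M) (v w : E) (u : E) : ℝ :=
  Ω ((chartAt E x).symm u) (mfderiv 𝓘(ℝ, E) 𝓘(ℝ, E) (chartAt E x).symm u v)
    (mfderiv 𝓘(ℝ, E) 𝓘(ℝ, E) (chartAt E x).symm u w)

/-- `Ω` (a bilinear form on each tangent space) is a symplectic form: alternating, nondegenerate,
smooth and closed. -/
def IsSymplectic (Ω : M → Bil E) : Prop :=
  (∀ x v, Ω x v v = 0) ∧
  (∀ x v, (∀ w, Ω x v w = 0) → v = 0) ∧
  (∀ x v w, ContDiffOn ℝ ∞ (locForm Ω x v w) (chartAt E x).target) ∧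
  ∀ x, ∀ u ∈ (chartAt E x).target, ∀ a b c : E,
    fderiv ℝ (locForm Ω x b c) u a + fderiv ℝ (locForm Ω x c a) u b +
      fderiv ℝ (locForm Ω x a b) u c = 0

/-- `H` is a smooth Hamiltonian, one-periodic in time, and `φ` is the flow of its Hamiltonian
vector field `X` (defined by `Ω (X, ·) = dH_t`) with `φ 0 = id`. -/
def IsHamFlow (Ω : M → Bil E) (H : ℝ → M → ℝ) (φ : ℝ → M → M) : Prop :=
  ContMDiff (𝓘(ℝ, ℝ).prod 𝓘(ℝ, E)) 𝓘(ℝ, ℝ) ∞ (fun q : ℝ × M => H q.1 q.2) ∧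
  (∀ t, H (t + 1) = H t) ∧
  φ 0 = id ∧
  ∀ x t, MDifferentiableAt 𝓘(ℝ, ℝ) 𝓘(ℝ, E) (fun s => φ s x) t ∧
    ∀ w : E, Ω (φ t x) (mfderiv 𝓘(ℝ, ℝ) 𝓘(ℝ, E) (fun s => φ s x) t (1 : ℝ)) w =
      mfderiv 𝓘(ℝ, E) 𝓘(ℝ, ℝ) (H t) (φ t x) w

variable (E)

/-- Every fixed point of `f` is nondegenerate: `f` is differentiable there and `1` is not an
eigenvalue of the differential. -/
def NondegFix (f : M → M) : Prop :=
  ∀ x, f x = x → MDifferentiableAt 𝓘(ℝ, E) 𝓘(ℝ, E) f x ∧
    ∀ v : E, (mfderiv 𝓘(ℝ, E) 𝓘(ℝ, E) f x v : E) = v → v = 0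

/-- `M` is a connected closed smooth manifold modelled on `E`. -/
def IsClosedManifold (M : Type) [TopologicalSpace M] [ChartedSpace E M] : Prop :=
  IsManifold 𝓘(ℝ, E) ∞ M ∧ T2Space M ∧ CompactSpace M ∧ ConnectedSpace M

end

/-- Euclidean space of dimension eight. -/
abbrev E8 : Type := EuclideanSpace ℝ (Fin 8)

end Vale.Agent.P265.G
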